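import Mathlib

/-! P253 (helper66): submodules of germs `O^n` are closed under uniform limits. -/

open Complex Filter Topology Set Metric

noncomputable section

namespace Vale.Agent.P253.R2.H66

/-- `P` defines an `O`-submodule of the module `O^n` of germs at `0`. -/
structure IsGermModule {n : ℕ} (P : (ℂ → Fin n → ℂ) → Prop) : Prop where
  analytic : ∀ f, P f → AnalyticAt ℂ f 0
  congr : ∀ f g, f =ᶠ[𝓝 0] g → P f → P g
  add : ∀ f g, P f → P g → P (fun z => f z + g z)
  smul : ∀ (a : ℂ → ℂ) f, AnalyticAt ℂ a 0 → P f → P (fun z => a z • f z)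

/-- division by `z^k` -/
theorem exists_div_pow {f : ℂ → ℂ} {r : ℝ} (hr : 0 < r) (hf : DifferentiableOn ℂ f (ball 0 r))
    {k : ℕ} (hk : (k : ℕ∞) ≤ analyticOrderAt f 0) :
    ∃ b : ℂ → ℂ, DifferentiableOn ℂ b (ball 0 r) ∧ ∀ z ∈ ball (0 : ℂ) r, f z = z ^ k * b z := by
  have h0 : (0 : ℂ) ∈ ball (0 : ℂ) r := mem_ball_self hr
  have hfa : AnalyticAt ℂ f 0 := hf.analyticAt (isOpen_ball.mem_nhds h0)
  obtain ⟨g, hg, hfg⟩ := (natCast_le_analyticOrderAt hfa).1 hk
  simp only [sub_zero, smul_eq_mul] at hfg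
  let b : ℂ → ℂ := fun z => if z = 0 then g 0 else f z / z ^ k
  have hbg : b =ᶠ[𝓝 0] g := by
    filter_upwards [hfg] with z hz
    by_cases h : z = 0
    · simp [b, h]
    · simp only [b, h, if_false, hz]
      field_simp
  refine ⟨b, fun z hz => ?_, fun z hz => ?_⟩
  · by_cases h : z = 0
    · subst h
      exact (hg.differentiableAt.congr_of_eventuallyEq hbg).differentiableWithinAt
    · have h1 : DifferentiableAt ℂ f z := hf.differentiableAt (isOpen_ball.mem_nhds hz)
      have h2 : b =ᶠ[𝓝 z] fun z => f z / z ^ k := by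
        filter_upwards [isOpen_ne.mem_nhds h] with w hw
        simp only [b, if_neg hw]
      exact ((h1.div (differentiableAt_id.pow k) (pow_ne_zero k h)).congr_of_eventuallyEq
        h2).differentiableWithinAt
  · by_cases h : z = 0
    · subst h
      have := hfg.self_of_nhds
      simp only [b, if_true]
      exact this
    · simp only [b, h, if_false]
      field_simp

/-- maximum principle for the quotients -/
theorem div_pow_bound {b : ℂ → ℂ} {r : ℝ} (hr : 0 < r) (hb : DifferentiableOn ℂ b (ball 0 r))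
    {k : ℕ} {C : ℝ} {s : ℝ} (hs : 0 < s) (hsr : s < r)
    (hC : ∀ z ∈ ball (0 : ℂ) r, ‖z ^ k * b z‖ ≤ C) : ∀ z ∈ closedBall (0 : ℂ) s, ‖b z‖ ≤ C / s ^ k := by
  intro z hz
  have hd : DiffContOnCl ℂ b (ball 0 s) :=
    (hb.mono (closedBall_subset_ball hsr)).diffContOnCl_ball subset_rfl
  apply Complex.norm_le_of_forall_mem_frontier_norm_le isBounded_ball hd
  · intro w hw
    rw [frontier_ball _ hs.ne', mem_sphere_zero_iff_norm] at hw
    have h1 := hC w (by rw [mem_ball_zero_iff, hw]; exact hsr)
    rw [norm_mul, norm_pow, hw] at h1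
    rw [le_div_iff₀ (by positivity)]
    linarith
  · rwa [closure_ball _ hs.ne']

variable {n : ℕ} {P : (ℂ → Fin n → ℂ) → Prop}

theorem germ_closed_aux (hP : IsGermModule P) (m : ℕ) : ∀ {r : ℝ}, 0 < r →
    ∀ {F : ℕ → ℂ → Fin n → ℂ} {f : ℂ → Fin n → ℂ},
    (∀ j, DifferentiableOn ℂ (F j) (ball 0 r)) → (∀ j, P (F j)) →
    (∀ j, ∀ z ∈ ball (0 : ℂ) r, ∀ i : Fin n, m ≤ i.1 → F j z i = 0) →
    TendstoUniformlyOn F f atTop (ball 0 r) → P f := by
  induction m with
  | zero =>
    intro r hr F f hF hPF h0 hlim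
    refine hP.congr (F 0) f ?_ (hPF 0)
    filter_upwards [ball_mem_nhds (0 : ℂ) hr] with z hz
    have h1 : Tendsto (fun j => F j z) atTop (𝓝 (f z)) := hlim.tendsto_at hz
    have h2 : ∀ j, F j z = F 0 z := fun j => by
      ext i
      rw [h0 j z hz i (Nat.zero_le _), h0 0 z hz i (Nat.zero_le _)]
    simp only [h2] at h1
    exact tendsto_nhds_unique tendsto_const_nhds h1
  | succ m ih =>
    intro r hr F f hF hPF h0 hlim
    by_cases hmn : m < n
    swap
    · exact ih hr hF hPF (fun j z hz i hi => absurd i.2 (by omega)) hlim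
    set M : Fin n := ⟨m, hmn⟩ with hM
    have hproj : ∀ {g : ℂ → Fin n → ℂ} {s : Set ℂ}, DifferentiableOn ℂ g s →
        ∀ i, DifferentiableOn ℂ (fun z => g z i) s := fun hg i => (differentiableOn_pi.1 hg) i
    by_cases hA : ∀ j, (fun z => F j z M) =ᶠ[𝓝 0] fun _ => 0
    · refine ih hr hF hPF (fun j z hz i hi => ?_) hlim
      rcases eq_or_lt_of_le hi with h | h
      · have hiM : i = M := Fin.ext h.symm
        subst hiM
        have h1 : AnalyticOnNhd ℂ (fun z => F j z M) (ball 0 r) :=
          (hproj (hF j) M).analyticOnNhd isOpen_ball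
        exact h1.eqOn_zero_of_preconnected_of_eventuallyEq_zero
          (convex_ball _ _).isPreconnected (mem_ball_self hr) (hA j) hz
      · exact h0 j z hz i h
    -- the minimal vanishing order
    push Not at hA
    obtain ⟨j₀, hj₀⟩ := hA
    let Q : ℕ → Prop := fun k => ∃ g : ℂ → Fin n → ℂ, P g ∧
      (∀ᶠ z in 𝓝 (0 : ℂ), ∀ i : Fin n, m + 1 ≤ i.1 → g z i = 0) ∧
      analyticOrderAt (fun z => g z M) 0 = k
    have han : ∀ {g : ℂ → Fin n → ℂ}, P g → AnalyticAt ℂ (fun z => g z M) 0 := fun hg =>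
      (analyticAt_pi_iff.1 (hP.analytic _ hg)) M
    have hQ : ∃ k, Q k := by
      have h1 : analyticOrderAt (fun z => F j₀ z M) 0 ≠ ⊤ := by
        intro h
        exact hj₀ (analyticOrderAt_eq_top.1 h)
      obtain ⟨k, hk⟩ := ENat.ne_top_iff_exists.1 h1
      refine ⟨k, F j₀, hPF j₀, ?_, hk.symm⟩
      filter_upwards [ball_mem_nhds (0 : ℂ) hr] with z hz i hi
      exact h0 j₀ z hz i hi
    classical
    set k := Nat.find hQ with hk
    obtain ⟨g, hPg, hg0, hgo⟩ := Nat.find_spec hQ
    rw [← hk] at hgo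
    have hmin : ∀ h : ℂ → Fin n → ℂ, P h →
        (∀ᶠ z in 𝓝 (0 : ℂ), ∀ i : Fin n, m + 1 ≤ i.1 → h z i = 0) →
        (k : ℕ∞) ≤ analyticOrderAt (fun z => h z M) 0 := by
      intro h hPh hh0
      by_cases htop : analyticOrderAt (fun z => h z M) 0 = ⊤
      · rw [htop]; exact le_top
      · obtain ⟨k', hk'⟩ := ENat.ne_top_iff_exists.1 htop
        rw [← hk']
        exact_mod_cast Nat.find_min' hQ ⟨h, hPh, hh0, hk'.symm⟩
    -- the good generator
    obtain ⟨a, ha, ha0, hga⟩ := ((han hPg).analyticOrderAt_eq_natCast).1 hgo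
    simp only [sub_zero, smul_eq_mul] at hga
    -- quotients
    have hdiv : ∀ j, ∃ b : ℂ → ℂ, DifferentiableOn ℂ b (ball 0 r) ∧
        ∀ z ∈ ball (0 : ℂ) r, F j z M = z ^ k * b z := fun j =>
      exists_div_pow hr (hproj (hF j) M) (hmin (F j) (hPF j) (by
        filter_upwards [ball_mem_nhds (0 : ℂ) hr] with z hz i hi
        exact h0 j z hz i hi))
    choose b hbd hbF using hdiv
    -- the small radius
    have hga' := hP.analytic g hPg
    obtain ⟨s, hs, hsr, hsa, hsg, hsg0, hsga, c, hc, hsc⟩ : ∃ s : ℝ, 0 < s ∧ s < r ∧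
        DifferentiableOn ℂ a (closedBall 0 s) ∧ DifferentiableOn ℂ g (closedBall 0 s) ∧
        (∀ z ∈ closedBall (0 : ℂ) s, ∀ i : Fin n, m + 1 ≤ i.1 → g z i = 0) ∧
        (∀ z ∈ closedBall (0 : ℂ) s, g z M = z ^ k * a z) ∧
        ∃ c : ℝ, 0 < c ∧ ∀ z ∈ closedBall (0 : ℂ) s, c ≤ ‖a z‖ := by
      have e1 : ∀ᶠ z in 𝓝 (0 : ℂ), DifferentiableAt ℂ a z :=
        ha.eventually_analyticAt.mono fun z hz => hz.differentiableAt
      have e2 : ∀ᶠ z in 𝓝 (0 : ℂ), DifferentiableAt ℂ g z :=
        hga'.eventually_analyticAt.mono fun z hz => hz.differentiableAt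
      have e3 : ∀ᶠ z in 𝓝 (0 : ℂ), ‖a 0‖ / 2 ≤ ‖a z‖ := by
        have h1 : ‖a 0‖ / 2 < ‖a 0‖ := by
          have : 0 < ‖a 0‖ := norm_pos_iff.2 ha0
          linarith
        exact (ha.continuousAt.norm.eventually (lt_mem_nhds h1)).mono fun z hz => hz.le
      obtain ⟨s, hs, hsub⟩ := Metric.nhds_basis_closedBall.eventually_iff.1
        ((((e1.and e2).and (hg0.and hga)).and e3).and (ball_mem_nhds (0 : ℂ) hr))
      refine ⟨min s (r / 2), by positivity, (min_le_right _ _).trans_lt (by linarith), ?_, ?_, ?_,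
        ?_, ‖a 0‖ / 2, by have : 0 < ‖a 0‖ := norm_pos_iff.2 ha0; positivity, ?_⟩
      all_goals
        intro z hz
        have h1 := hsub (closedBall_subset_closedBall (min_le_left _ _) hz)
      · exact h1.1.1.1.1.differentiableWithinAt
      · exact h1.1.1.1.2.differentiableWithinAt
      · exact h1.1.1.2.1
      · exact h1.1.1.2.2
      · exact h1.1.2
    have hane : ∀ z ∈ closedBall (0 : ℂ) s, a z ≠ 0 := fun z hz h => by
      have := hsc z hz
      rw [h, norm_zero] at this
      linarith
    -- uniform convergence of the quotients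
    have hcauchy : UniformCauchySeqOn b atTop (closedBall 0 s) := by
      rw [Metric.uniformCauchySeqOn_iff]
      intro ε hε
      have h1 := Metric.uniformCauchySeqOn_iff.1 hlim.uniformCauchySeqOn (ε * s ^ k / 2)
        (by positivity)
      obtain ⟨N, hN⟩ := h1
      refine ⟨N, fun i hi j hj z hz => ?_⟩
      have h2 : ∀ w ∈ ball (0 : ℂ) r, ‖w ^ k * (b i w - b j w)‖ ≤ ε * s ^ k / 2 := by
        intro w hw
        have h3 := hN i hi j hj w hw
        have h4 : w ^ k * (b i w - b j w) = (F i w - F j w) M := by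
          rw [Pi.sub_apply, hbF i w hw, hbF j w hw]; ring
        rw [h4]
        rw [dist_eq_norm] at h3
        exact (norm_le_pi_norm _ M).trans h3.le
      have h5 := div_pow_bound hr ((hbd i).sub (hbd j)) hs hsr h2 z hz
      rw [dist_eq_norm]
      calc ‖b i z - b j z‖ ≤ ε * s ^ k / 2 / s ^ k := h5
        _ = ε / 2 := by field_simp
        _ < ε := by linarith
    obtain ⟨B, hB⟩ : ∃ B : ℂ → ℂ, TendstoUniformlyOn b B atTop (closedBall 0 s) := by
      have h1 : ∀ z ∈ closedBall (0 : ℂ) s, ∃ l, Tendsto (fun j => b j z) atTop (𝓝 l) :=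
        fun z hz => cauchySeq_tendsto_of_complete (hcauchy.cauchySeq hz)
      choose! B hB using h1
      exact ⟨B, hcauchy.tendstoUniformlyOn_of_tendsto hB⟩
    have hBd : DifferentiableOn ℂ B (ball 0 s) := by
      have h1 : TendstoLocallyUniformlyOn b B atTop (ball 0 s) :=
        (hB.mono ball_subset_closedBall).tendstoLocallyUniformlyOn
      exact h1.differentiableOn (Eventually.of_forall fun j => (hbd j).mono
        (ball_subset_ball hsr.le)) isOpen_ball
    have h0s : (0 : ℂ) ∈ ball (0 : ℂ) s := mem_ball_self hs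
    have hsub : ball (0 : ℂ) s ⊆ closedBall 0 s := ball_subset_closedBall
    have haA : AnalyticAt ℂ a 0 := ha
    have hanalq : ∀ {c : ℂ → ℂ}, DifferentiableOn ℂ c (ball 0 s) →
        AnalyticAt ℂ (fun z => -(c z / a z)) 0 := fun hc =>
      ((hc.analyticAt (isOpen_ball.mem_nhds h0s)).div haA ha0).neg
    -- the modified sequence
    set H : ℕ → ℂ → Fin n → ℂ := fun j z => F j z + (-(b j z / a z)) • g z with hH
    set h : ℂ → Fin n → ℂ := fun z => f z + (-(B z / a z)) • g z with hh
    have hPh : P h := by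
      refine ih hs (F := H) ?_ ?_ ?_ ?_
      · intro j
        have h1 : DifferentiableOn ℂ (fun z => -(b j z / a z)) (ball 0 s) :=
          (((hbd j).mono (ball_subset_ball hsr.le)).div (hsa.mono hsub)
            fun z hz => hane z (hsub hz)).neg
        have h2 : DifferentiableOn ℂ (fun z => (-(b j z / a z)) • g z) (ball 0 s) :=
          h1.smul (hsg.mono hsub)
        exact ((hF j).mono (ball_subset_ball hsr.le)).add h2
      · intro j
        exact hP.add _ _ (hPF j) (hP.smul _ _ (hanalq ((hbd j).mono (ball_subset_ball hsr.le))) hPg)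
      · intro j z hz i hi
        have hz' := hsub hz
        have hzr : z ∈ ball (0 : ℂ) r := ball_subset_ball hsr.le hz
        rcases eq_or_lt_of_le hi with h1 | h1
        · have hiM : i = M := Fin.ext h1.symm
          subst hiM
          simp only [hH, Pi.add_apply, Pi.smul_apply, smul_eq_mul]
          rw [hbF j z hzr, hsga z hz']
          have := hane z hz'
          field_simp
          ring
        · simp only [hH, Pi.add_apply, Pi.smul_apply, smul_eq_mul]
          rw [h0 j z hzr i h1, hsg0 z hz' i h1]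
          simp
      · -- uniform convergence
        obtain ⟨G, hG⟩ : ∃ G : ℝ, ∀ z ∈ closedBall (0 : ℂ) s, ‖g z‖ ≤ G :=
          (isCompact_closedBall (0 : ℂ) s).exists_bound_of_continuousOn hsg.continuousOn
        have hG0 : 0 ≤ G := (norm_nonneg _).trans (hG 0 (mem_closedBall_self hs.le))
        rw [Metric.tendstoUniformlyOn_iff]
        intro ε hε
        have e1 := Metric.tendstoUniformlyOn_iff.1 hlim (ε / 2) (by positivity)
        have e2 := Metric.tendstoUniformlyOn_iff.1 hB (ε / 2 * c / (G + 1)) (by positivity)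
        filter_upwards [e1, e2] with j h1 h2 z hz
        have hz' := hsub hz
        have hzr : z ∈ ball (0 : ℂ) r := ball_subset_ball hsr.le hz
        have h3 := h1 z hzr
        have h4 := h2 z hz'
        rw [dist_eq_norm] at h3 h4 ⊢
        have h5 : h z - H j z = (f z - F j z) + (-((B z - b j z) / a z)) • g z := by
          simp only [hh, hH]
          rw [sub_div]
          module
        rw [h5]
        have h6 : ‖(-((B z - b j z) / a z)) • g z‖ ≤ ε / 2 := by
          rw [norm_smul, norm_neg, norm_div]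
          have h7 := hsc z hz'
          calc ‖B z - b j z‖ / ‖a z‖ * ‖g z‖ ≤ (ε / 2 * c / (G + 1)) / c * G := by
                gcongr
                exact hG z hz'
            _ ≤ ε / 2 := by
                rw [div_div, mul_comm (G + 1) c, ← div_div, mul_div_assoc, mul_div_assoc]
                have : c / c = 1 := div_self hc.ne'
                have h8 : ε / 2 * (c / c / (G + 1)) * G = ε / 2 * (G / (G + 1)) := by
                  rw [this]; ring
                rw [h8]
                have h9 : G / (G + 1) ≤ 1 := by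
                  rw [div_le_one (by positivity)]; linarith
                nlinarith
        calc ‖(f z - F j z) + (-((B z - b j z) / a z)) • g z‖
            ≤ ‖f z - F j z‖ + ‖(-((B z - b j z) / a z)) • g z‖ := norm_add_le _ _
          _ < ε / 2 + ε / 2 := by linarith
          _ = ε := by ring
    have hfin : P (fun z => h z + (B z / a z) • g z) := by
      refine hP.add _ _ hPh (hP.smul _ _ ?_ hPg)
      exact (hBd.analyticAt (isOpen_ball.mem_nhds h0s)).div haA ha0
    refine hP.congr _ _ ?_ hfin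
    filter_upwards with z
    simp only [hh]
    module

/-- **Submodules of `O^n` are closed.** -/
theorem germ_closed (hP : IsGermModule P) {r : ℝ} (hr : 0 < r)
    {F : ℕ → ℂ → Fin n → ℂ} {f : ℂ → Fin n → ℂ}
    (hF : ∀ j, DifferentiableOn ℂ (F j) (ball 0 r)) (hPF : ∀ j, P (F j))
    (hlim : TendstoUniformlyOn F f atTop (ball 0 r)) : P f :=
  germ_closed_aux hP n hr hF hPF (fun _ _ _ i hi => absurd i.2 (by omega)) hlim

end Vale.Agent.P253.R2.H66
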