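import Vale.Agent.P253.R2.H66.Wirt

/-! P253 (helper66): the basic (Hörmander) inequality on open sets of `ℂ` for operator valued
weights. -/

open Complex Filter Topology Set Metric MeasureTheory
open scoped ContDiff InnerProductSpace

noncomputable section

namespace Vale.Agent.P253.R2.H66

/-! ### integrals of derivatives -/

section ibp

variable {F : Type*} [NormedAddCommGroup F] [NormedSpace ℂ F]

theorem integral_fderiv_eq_zero {f : ℂ → F} (hf : ContDiff ℝ 1 f) (hs : HasCompactSupport f)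
    (v : ℂ) : ∫ z, fderiv ℝ f z v = 0 := by
  obtain ⟨g, hg1, -⟩ : ∃ g : ℂ → ℝ, g = (fun _ => 1) ∧ True := ⟨_, rfl, trivial⟩
  have hc : Continuous fun z => fderiv ℝ f z v :=
    (hf.continuous_fderiv one_ne_zero).clm_apply continuous_const
  have hcs : HasCompactSupport fun z => fderiv ℝ f z v :=
    (hs.fderiv ℝ).comp_left (g := fun T : ℂ →L[ℝ] F => T v) (by simp)
  have h := integral_smul_fderiv_eq_neg_fderiv_smul_of_integrable (𝕜 := ℝ) (μ := volume)
    (f := g) (g := f) (v := v) (by simp [hg1])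
    (by simpa [hg1] using hc.integrable_of_hasCompactSupport hcs)
    (by simpa [hg1] using hf.continuous.integrable_of_hasCompactSupport hs)
    (by rw [hg1]; exact fun x _ => differentiableAt_const _)
    (fun x _ => (hf.differentiable one_ne_zero) x)
  simpa [hg1] using h

theorem dz_compactSupport {f : ℂ → F} (hs : HasCompactSupport f) :
    HasCompactSupport (dz f) :=
  (hs.fderiv ℝ).comp_left (g := fun T : ℂ →L[ℝ] F => (1 / 2 : ℂ) • (T 1 - I • T I)) (by simp)

theorem dzb_compactSupport {f : ℂ → F} (hs : HasCompactSupport f) :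
    HasCompactSupport (dzb f) :=
  (hs.fderiv ℝ).comp_left (g := fun T : ℂ →L[ℝ] F => (1 / 2 : ℂ) • (T 1 + I • T I)) (by simp)

theorem integral_dz_eq_zero {f : ℂ → F} (hf : ContDiff ℝ 1 f) (hs : HasCompactSupport f) :
    ∫ z, dz f z = 0 := by
  have hc : ∀ v, Integrable (fun z => fderiv ℝ f z v) volume := fun v =>
    ((hf.continuous_fderiv one_ne_zero).clm_apply continuous_const).integrable_of_hasCompactSupport
      ((hs.fderiv ℝ).comp_left (g := fun T : ℂ →L[ℝ] F => T v) (by simp))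
  have h2 : Integrable (fun z => I • fderiv ℝ f z I) volume := (hc I).smul I
  simp only [dz]
  rw [integral_smul, integral_sub (hc 1) h2, integral_smul,
    integral_fderiv_eq_zero hf hs, integral_fderiv_eq_zero hf hs]
  simp

theorem integral_dzb_eq_zero {f : ℂ → F} (hf : ContDiff ℝ 1 f) (hs : HasCompactSupport f) :
    ∫ z, dzb f z = 0 := by
  have hc : ∀ v, Integrable (fun z => fderiv ℝ f z v) volume := fun v =>
    ((hf.continuous_fderiv one_ne_zero).clm_apply continuous_const).integrable_of_hasCompactSupport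
      ((hs.fderiv ℝ).comp_left (g := fun T : ℂ →L[ℝ] F => T v) (by simp))
  have h2 : Integrable (fun z => I • fderiv ℝ f z I) volume := (hc I).smul I
  simp only [dzb]
  rw [integral_smul, integral_add (hc 1) h2, integral_smul,
    integral_fderiv_eq_zero hf hs, integral_fderiv_eq_zero hf hs]
  simp

/-- regularity of Wirtinger derivatives -/
theorem contDiffOn_dz {f : ℂ → F} {Q : Set ℂ} (hQ : IsOpen Q) {m n : ℕ∞} (hf : ContDiffOn ℝ n f Q)
    (hmn : m + 1 ≤ n) : ContDiffOn ℝ m (dz f) Q := by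
  have h : ContDiffOn ℝ m (fderiv ℝ f) Q := hf.fderiv_of_isOpen hQ (by exact_mod_cast hmn)
  exact contDiffOn_const.smul ((h.clm_apply contDiffOn_const).sub
    ((h.clm_apply contDiffOn_const).const_smul I))

theorem contDiffOn_dzb {f : ℂ → F} {Q : Set ℂ} (hQ : IsOpen Q) {m n : ℕ∞}
    (hf : ContDiffOn ℝ n f Q) (hmn : m + 1 ≤ n) : ContDiffOn ℝ m (dzb f) Q := by
  have h : ContDiffOn ℝ m (fderiv ℝ f) Q := hf.fderiv_of_isOpen hQ (by exact_mod_cast hmn)
  exact contDiffOn_const.smul ((h.clm_apply contDiffOn_const).add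
    ((h.clm_apply contDiffOn_const).const_smul I))

end ibp

/-- A function which is `C^n` on an open set containing the (compact) support of a function is
`C^n` when multiplied: extension by zero. -/
theorem contDiff_of_tsupport {F : Type*} [NormedAddCommGroup F] [NormedSpace ℝ F]
    {f : ℂ → F} {Q : Set ℂ} (hQ : IsOpen Q) {n : ℕ∞} (hf : ContDiffOn ℝ n f Q)
    (hs : tsupport f ⊆ Q) : ContDiff ℝ n f := by
  rw [contDiff_iff_contDiffAt]
  intro z
  by_cases hz : z ∈ tsupport f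
  · exact hf.contDiffAt (hQ.mem_nhds (hs hz))
  · have h1 : f =ᶠ[𝓝 z] fun _ => 0 := by
      filter_upwards [(isClosed_tsupport f).isOpen_compl.mem_nhds hz] with w hw
      exact image_eq_zero_of_notMem_tsupport hw
    exact contDiffAt_const.congr_of_eventuallyEq h1

section hoer

variable {E : Type*} [NormedAddCommGroup E] [InnerProductSpace ℂ E]

/-- the adjoint of `k_z̄` is `k_z` for symmetric `k` -/
theorem inner_dz_eq {k : ℂ → E →L[ℂ] E} {Q : Set ℂ} (hQ : IsOpen Q)
    (hk : DifferentiableOn ℝ k Q) (hsym : ∀ z ∈ Q, ∀ v w, ⟪v, k z w⟫_ℂ = ⟪k z v, w⟫_ℂ)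
    {z : ℂ} (hz : z ∈ Q) (v w : E) : ⟪v, dz k z w⟫_ℂ = ⟪dzb k z v, w⟫_ℂ := by
  have hkz : DifferentiableAt ℝ k z := (hk z hz).differentiableAt (hQ.mem_nhds hz)
  have h1 : dz (fun x => ⟪v, k x w⟫_ℂ) z = ⟪v, dz k z w⟫_ℂ := by
    rw [dz_inner (differentiableAt_const _) (differentiableAt_capply hkz (differentiableAt_const _)),
      dz_apply hkz (differentiableAt_const _)]
    simp [dz, dzb]
  have h2 : dz (fun x => ⟪k x v, w⟫_ℂ) z = ⟪dzb k z v, w⟫_ℂ := by
    rw [dz_inner (differentiableAt_capply hkz (differentiableAt_const _)) (differentiableAt_const _),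
      dzb_apply hkz (differentiableAt_const _)]
    simp [dz, dzb]
  rw [← h1, ← h2]
  apply dz_congr
  filter_upwards [hQ.mem_nhds hz] with x hx
  exact hsym x hx v w

variable {k : ℂ → E →L[ℂ] E} {Q : Set ℂ} {β : ℂ → E}

/-- pointwise identity behind the basic inequality -/
theorem basic_pointwise (hQ : IsOpen Q) (hk : ContDiffOn ℝ 2 k Q)
    (hsym : ∀ z ∈ Q, ∀ v w, ⟪v, k z w⟫_ℂ = ⟪k z v, w⟫_ℂ) (hβ : ContDiff ℝ 2 β)
    {z : ℂ} (hz : z ∈ Q) :
    ⟪β z, dz (dzb k) z (β z)⟫_ℂ + ⟪β z, dz k z (dzb β z)⟫_ℂ + ⟪dzb β z, dzb k z (β z)⟫_ℂ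
      + ⟪dzb β z, k z (dzb β z)⟫_ℂ - ⟪dz β z, k z (dz β z)⟫_ℂ =
    dz (fun x => ⟪β x, dzb (fun y => k y (β y)) x⟫_ℂ) z
      - dzb (fun x => ⟪β x, k x (dz β x)⟫_ℂ) z := by
  have hβ1 : ContDiff ℝ 1 β := hβ.of_le (by norm_num)
  have hβd : Differentiable ℝ β := hβ1.differentiable one_ne_zero
  have hk1 : ContDiffOn ℝ 1 k Q := hk.of_le (by norm_num)
  have hkd : ∀ x ∈ Q, DifferentiableAt ℝ k x := fun x hx =>
    (hk1.differentiableOn one_ne_zero x hx).differentiableAt (hQ.mem_nhds hx)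
  have hkb : ContDiffOn ℝ 1 (dzb k) Q := contDiffOn_dzb (n := 2) (m := 1) hQ hk (by norm_num)
  have hkbd : DifferentiableAt ℝ (dzb k) z :=
    (hkb.differentiableOn one_ne_zero z hz).differentiableAt (hQ.mem_nhds hz)
  have hβz : ContDiff ℝ 1 (dz β) := by
    rw [← contDiffOn_univ] at hβ ⊢
    exact contDiffOn_dz (n := 2) (m := 1) isOpen_univ hβ (by norm_num)
  have hβb : ContDiff ℝ 1 (dzb β) := by
    rw [← contDiffOn_univ] at hβ ⊢
    exact contDiffOn_dzb (n := 2) (m := 1) isOpen_univ hβ (by norm_num)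
  have hβzd : DifferentiableAt ℝ (dz β) z := hβz.differentiable one_ne_zero z
  have hβbd : DifferentiableAt ℝ (dzb β) z := hβb.differentiable one_ne_zero z
  have e1 : (fun x => ⟪β x, dzb (fun y => k y (β y)) x⟫_ℂ) =ᶠ[𝓝 z]
      fun x => ⟪β x, dzb k x (β x) + k x (dzb β x)⟫_ℂ := by
    filter_upwards [hQ.mem_nhds hz] with x hx
    rw [dzb_apply (hkd x hx) (hβd x)]
  have d1 : DifferentiableAt ℝ (fun x => dzb k x (β x)) z := differentiableAt_capply hkbd (hβd z)
  have d2 : DifferentiableAt ℝ (fun x => k x (dzb β x)) z :=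
    differentiableAt_capply (hkd z hz) hβbd
  have d3 : DifferentiableAt ℝ (fun x => k x (dz β x)) z :=
    differentiableAt_capply (hkd z hz) hβzd
  have d4 : DifferentiableAt ℝ (fun x => dzb k x (β x) + k x (dzb β x)) z := d1.add d2
  rw [dz_congr e1, dz_inner (hβd z) d4,
    dz_add d1 d2, dz_apply hkbd (hβd z),
    dz_apply (hkd z hz) hβbd, dzb_inner (hβd z) d3,
    dzb_apply (hkd z hz) hβzd]
  have hcomm : dz (dzb β) z = dzb (dz β) z := by
    have hs : IsSymmSndFDerivAt ℝ β z := by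
      apply ContDiffAt.isSymmSndFDerivAt (n := 2) hβ.contDiffAt
      simp
    have hfd : ContDiff ℝ 1 (fderiv ℝ β) := hβ.fderiv_right (by norm_num)
    have hfdd : DifferentiableAt ℝ (fderiv ℝ β) z := hfd.differentiable one_ne_zero z
    have h1 : ∀ v w : ℂ, fderiv ℝ (fun x => fderiv ℝ β x v) z w = fderiv ℝ (fderiv ℝ β) z w v := by
      intro v w
      rw [fderiv_clm_apply hfdd (differentiableAt_const v)]
      simp
    have h2 : ∀ v : ℂ, DifferentiableAt ℝ (fun x => fderiv ℝ β x v) z := fun v =>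
      hfdd.clm_apply (differentiableAt_const v)
    have h3 : ∀ w, fderiv ℝ (dzb β) z w = (1 / 2 : ℂ) • (fderiv ℝ (fderiv ℝ β) z w 1 +
        I • fderiv ℝ (fderiv ℝ β) z w I) := by
      intro w
      have : HasFDerivAt (dzb β) ((1 / 2 : ℂ) • (fderiv ℝ (fun x => fderiv ℝ β x 1) z +
          I • fderiv ℝ (fun x => fderiv ℝ β x I) z)) z :=
        (((h2 1).hasFDerivAt).add ((h2 I).hasFDerivAt.const_smul I)).const_smul _
      rw [this.fderiv]
      simp only [smul_apply, add_apply, h1]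
    have h4 : ∀ w, fderiv ℝ (dz β) z w = (1 / 2 : ℂ) • (fderiv ℝ (fderiv ℝ β) z w 1 -
        I • fderiv ℝ (fderiv ℝ β) z w I) := by
      intro w
      have : HasFDerivAt (dz β) ((1 / 2 : ℂ) • (fderiv ℝ (fun x => fderiv ℝ β x 1) z -
          I • fderiv ℝ (fun x => fderiv ℝ β x I) z)) z :=
        (((h2 1).hasFDerivAt).sub ((h2 I).hasFDerivAt.const_smul I)).const_smul _
      rw [this.fderiv]
      simp only [smul_apply, sub_apply, h1]
    have h5 := hs.eq 1 I
    rw [dz, dzb, h3, h3, h4, h4, h5]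
    module
  have hadj := inner_dz_eq hQ (hk1.differentiableOn one_ne_zero) hsym hz
  rw [hcomm]
  simp only [inner_add_right]
  ring

theorem continuous_of_tsupport' {F : Type*} [TopologicalSpace F] [Zero F]
    {f : ℂ → F} {Q : Set ℂ} (hQ : IsOpen Q) (hf : ContinuousOn f Q)
    (hs : tsupport f ⊆ Q) : Continuous f := by
  rw [continuous_iff_continuousAt]
  intro z
  by_cases hz : z ∈ tsupport f
  · exact hf.continuousAt (hQ.mem_nhds (hs hz))
  · have h1 : f =ᶠ[𝓝 z] fun _ => 0 := by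
      filter_upwards [(isClosed_tsupport f).isOpen_compl.mem_nhds hz] with w hw
      exact image_eq_zero_of_notMem_tsupport hw
    exact continuousAt_const.congr h1.symm

theorem tsupport_subset_of_zero {F F' : Type*} [Zero F] [Zero F'] {f : ℂ → F} {g : ℂ → F'}
    (h : ∀ z, f z = 0 → g z = 0) : tsupport g ⊆ tsupport f :=
  closure_mono fun z hz hf => hz (h z hf)

theorem tsupport_subset_of_eventually {F F' : Type*} [Zero F] [Zero F'] {f : ℂ → F} {g : ℂ → F'}
    (h : ∀ z, z ∉ tsupport f → g z = 0) : tsupport g ⊆ tsupport f :=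
  closure_minimal (fun z hz => by_contra fun hf => hz (h z hf)) (isClosed_tsupport f)

theorem dz_eq_zero_of_notMem {F : Type*} [NormedAddCommGroup F] [NormedSpace ℂ F] {f : ℂ → F}
    {z : ℂ} (hz : z ∉ tsupport f) : dz f z = 0 := by
  have h1 : f =ᶠ[𝓝 z] fun _ => 0 := by
    filter_upwards [(isClosed_tsupport f).isOpen_compl.mem_nhds hz] with w hw
    exact image_eq_zero_of_notMem_tsupport hw
  rw [dz_congr h1]; simp [dz]

theorem dzb_eq_zero_of_notMem {F : Type*} [NormedAddCommGroup F] [NormedSpace ℂ F] {f : ℂ → F}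
    {z : ℂ} (hz : z ∉ tsupport f) : dzb f z = 0 := by
  have h1 : f =ᶠ[𝓝 z] fun _ => 0 := by
    filter_upwards [(isClosed_tsupport f).isOpen_compl.mem_nhds hz] with w hw
    exact image_eq_zero_of_notMem_tsupport hw
  rw [dzb_congr h1]; simp [dzb]

/-- The curvature condition for the weight `k`: for all `b, c`,
`ρ ⟨k b, b⟩ ≤ ⟨k_{z z̄} b, b⟩ + 2 Re ⟨k_z̄ b, c⟩ + ⟨k c, c⟩`. -/
def CurvGE (k : ℂ → E →L[ℂ] E) (ρ : ℂ → ℝ) (z : ℂ) : Prop :=
  ∀ b c : E, ρ z * (⟪b, k z b⟫_ℂ).re ≤ (⟪b, dz (dzb k) z b⟫_ℂ).re + 2 * (⟪c, dzb k z b⟫_ℂ).re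
    + (⟪c, k z c⟫_ℂ).re

/-- **The basic inequality.** -/
theorem basic_ineq (hQ : IsOpen Q) (hk : ContDiffOn ℝ 2 k Q)
    (hsym : ∀ z ∈ Q, ∀ v w, ⟪v, k z w⟫_ℂ = ⟪k z v, w⟫_ℂ) {ρ : ℂ → ℝ} (hρ : ContinuousOn ρ Q)
    (hcurv : ∀ z ∈ Q, CurvGE k ρ z)
    (hβ : ContDiff ℝ 2 β) (hβc : HasCompactSupport β) (hβs : tsupport β ⊆ Q) :
    Integrable (fun z => ρ z * (⟪β z, k z (β z)⟫_ℂ).re) ∧
    Integrable (fun z => (⟪dz β z, k z (dz β z)⟫_ℂ).re) ∧
    ∫ z, ρ z * (⟪β z, k z (β z)⟫_ℂ).re ≤ ∫ z, (⟪dz β z, k z (dz β z)⟫_ℂ).re := by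
  have hβ1 : ContDiff ℝ 1 β := hβ.of_le (by norm_num)
  have hk1 : ContDiffOn ℝ 1 k Q := hk.of_le (by norm_num)
  have hβz : ContDiff ℝ 1 (dz β) := by
    rw [← contDiffOn_univ] at hβ ⊢
    exact contDiffOn_dz (n := 2) (m := 1) isOpen_univ hβ (by norm_num)
  set S : ℂ → ℂ := fun x => ⟪β x, dzb (fun y => k y (β y)) x⟫_ℂ with hS
  set T : ℂ → ℂ := fun x => ⟪β x, k x (dz β x)⟫_ℂ with hT
  have hSt : tsupport S ⊆ tsupport β := tsupport_subset_of_zero fun z hz => by
    rw [hS]; simp [hz]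
  have hTt : tsupport T ⊆ tsupport β := tsupport_subset_of_zero fun z hz => by
    rw [hT]; simp [hz]
  have hScs : HasCompactSupport S := hβc.mono' ((subset_tsupport S).trans hSt)
  have hTcs : HasCompactSupport T := hβc.mono' ((subset_tsupport T).trans hTt)
  have hSc : ContDiff ℝ 1 S := by
    apply contDiff_of_tsupport (n := 1) hQ _ (hSt.trans hβs)
    have h1 : ContDiffOn ℝ 2 (fun y => k y (β y)) Q := contDiffOn_capply hk hβ.contDiffOn
    exact hβ1.contDiffOn.inner ℂ (contDiffOn_dzb (n := 2) (m := 1) hQ h1 (by norm_num))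
  have hTc : ContDiff ℝ 1 T := by
    apply contDiff_of_tsupport (n := 1) hQ _ (hTt.trans hβs)
    exact hβ1.contDiffOn.inner ℂ (contDiffOn_capply hk1 hβz.contDiffOn)
  have hdzS : Continuous (dz S) := by
    rw [← contDiffOn_univ] at hSc
    exact continuousOn_univ.1 (contDiffOn_dz (n := 1) (m := 0) isOpen_univ hSc
      (by norm_num)).continuousOn
  have hdzT : Continuous (dzb T) := by
    rw [← contDiffOn_univ] at hTc
    exact continuousOn_univ.1 (contDiffOn_dzb (n := 1) (m := 0) isOpen_univ hTc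
      (by norm_num)).continuousOn
  have i1 : Integrable (dz S) := hdzS.integrable_of_hasCompactSupport (dz_compactSupport hScs)
  have i2 : Integrable (dzb T) := hdzT.integrable_of_hasCompactSupport (dzb_compactSupport hTcs)
  have hu2 : Integrable (fun z => ρ z * (⟪β z, k z (β z)⟫_ℂ).re) := by
    have hts : tsupport (fun z => ρ z * (⟪β z, k z (β z)⟫_ℂ).re) ⊆ tsupport β :=
      tsupport_subset_of_zero fun z hz => by simp [hz]
    refine Continuous.integrable_of_hasCompactSupport (continuous_of_tsupport' hQ ?_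
      (hts.trans hβs)) (hβc.mono' ((subset_tsupport _).trans hts))
    exact hρ.mul (Complex.continuous_re.comp_continuousOn
      (hβ1.continuous.continuousOn.inner (hk1.continuousOn.clm_apply hβ1.continuous.continuousOn)))
  have hu1 : Integrable (fun z => (⟪dz β z, k z (dz β z)⟫_ℂ).re) := by
    have hts : tsupport (fun z => (⟪dz β z, k z (dz β z)⟫_ℂ).re) ⊆ tsupport β :=
      tsupport_subset_of_eventually fun z hz => by simp [dz_eq_zero_of_notMem hz]
    refine Continuous.integrable_of_hasCompactSupport (continuous_of_tsupport' hQ ?_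
      (hts.trans hβs)) (hβc.mono' ((subset_tsupport _).trans hts))
    exact (Complex.continuous_re.comp_continuousOn
      (hβz.continuous.continuousOn.inner (hk1.continuousOn.clm_apply hβz.continuous.continuousOn)))
  refine ⟨hu2, hu1, ?_⟩
  have key : ∀ z, ρ z * (⟪β z, k z (β z)⟫_ℂ).re ≤
      (⟪dz β z, k z (dz β z)⟫_ℂ).re + (dz S z - dzb T z).re := by
    intro z
    by_cases hz : z ∈ Q
    · rw [← basic_pointwise hQ hk hsym hβ hz]
      have h1 := hcurv z hz (β z) (dzb β z)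
      have h2 : (⟪β z, dz k z (dzb β z)⟫_ℂ).re = (⟪dzb β z, dzb k z (β z)⟫_ℂ).re := by
        rw [inner_dz_eq hQ (hk1.differentiableOn one_ne_zero) hsym hz, ← inner_conj_symm,
          Complex.conj_re]
      simp only [Complex.sub_re, Complex.add_re, h2]
      linarith
    · have hz' : z ∉ tsupport β := fun h => hz (hβs h)
      have hS0 : dz S z = 0 := dz_eq_zero_of_notMem fun h => hz' (hSt h)
      have hT0 : dzb T z = 0 := dzb_eq_zero_of_notMem fun h => hz' (hTt h)
      rw [hS0, hT0, image_eq_zero_of_notMem_tsupport hz', dz_eq_zero_of_notMem hz']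
      simp
  have i3 : Integrable (fun z => (dz S z - dzb T z).re) := (i1.sub i2).re
  calc ∫ z, ρ z * (⟪β z, k z (β z)⟫_ℂ).re
      ≤ ∫ z, ((⟪dz β z, k z (dz β z)⟫_ℂ).re + (dz S z - dzb T z).re) :=
        integral_mono hu2 (hu1.add i3) key
    _ = ∫ z, (⟪dz β z, k z (dz β z)⟫_ℂ).re := by
        rw [integral_add hu1 i3]
        have h1 : ∫ z, (dz S z - dzb T z).re = 0 := by
          have h2 : ∫ z, (dz S z - dzb T z).re = (∫ z, (dz S z - dzb T z)).re :=
            integral_re (i1.sub i2)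
          rw [h2, integral_sub i1 i2, integral_dz_eq_zero hSc hScs, integral_dzb_eq_zero hTc hTcs]
          simp
        rw [h1, add_zero]

end hoer

end Vale.Agent.P253.R2.H66
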