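import Vale.Agent.P253.R2.H66.Hoer1

/-! P253 (helper66): Weyl's lemma for `∂̄` on open sets of `ℂ` (adapted from P271/H408). -/

open MeasureTheory Filter Topology Metric
open scoped ENNReal NNReal Convolution ContDiff

namespace Vale.Agent.P253.R2.H66.Weyl

variable {F : Type*} [NormedAddCommGroup F] [NormedSpace ℂ F]

/-- Multiplication by a unit complex number preserves Lebesgue measure. -/
theorem measurePreserving_unit (c : ℂ) (hc : ‖c‖ = 1) :
    MeasurePreserving (fun v : ℂ => c • v) volume volume := by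
  have h2 : MeasurePreserving (fun w : ℂ => c * w) volume volume := by
    have h4 : c ∈ Submonoid.unitSphere ℂ := by
      simp [Submonoid.unitSphere, hc]
    exact (rotation (⟨c, h4⟩ : Circle)).measurePreserving
  exact h2

theorem lintegral_unit (c : ℂ) (hc : ‖c‖ = 1) (f : ℂ → ℝ≥0∞) :
    ∫⁻ v, f (c • v) = ∫⁻ v, f v := by
  have hc0 : c ≠ 0 := by
    intro h
    rw [h, norm_zero] at hc
    exact zero_ne_one hc
  exact (measurePreserving_unit c hc).lintegral_comp_emb
    (Homeomorph.smulOfNeZero c hc0).measurableEmbedding f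

theorem integral_unit (c : ℂ) (hc : ‖c‖ = 1) {G : Type*} [NormedAddCommGroup G] [NormedSpace ℝ G]
    (f : ℂ → G) : ∫ v, f (c • v) = ∫ v, f v := by
  have hc0 : c ≠ 0 := by
    intro h
    rw [h, norm_zero] at hc
    exact zero_ne_one hc
  exact (measurePreserving_unit c hc).integral_comp
    (Homeomorph.smulOfNeZero c hc0).measurableEmbedding f

/-- Holomorphic functions restricted to a complex line through `z`. -/
theorem diff_line {E : Type*} [NormedAddCommGroup E] [NormedSpace ℂ E] {f : E → F} {z v : E}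
    {r : ℝ} (hf : DifferentiableOn ℂ f (ball z r)) (hv : ‖v‖ < r) :
    DifferentiableOn ℂ (fun t : ℂ => f (z + t • v)) (closedBall 0 1) := by
  refine hf.comp (by fun_prop) fun t ht => ?_
  rw [mem_closedBall_zero_iff] at ht
  rw [mem_ball, dist_eq_norm, add_sub_cancel_left, norm_smul]
  calc ‖t‖ * ‖v‖ ≤ 1 * ‖v‖ := by gcongr
    _ < r := by rwa [one_mul]

/-- Mean value property on a circle in a complex line. -/
theorem circle_mean [CompleteSpace F] {E : Type*} [NormedAddCommGroup E] [NormedSpace ℂ E]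
    {f : E → F} {z v : E}
    {r : ℝ} (hf : DifferentiableOn ℂ f (ball z r)) (hv : ‖v‖ < r) :
    (2 * Real.pi)⁻¹ • ∫ θ in (0 : ℝ)..2 * Real.pi, f (z + circleMap 0 1 θ • v) = f z := by
  have hd := diff_line hf hv
  have h0 : DiffContOnCl ℂ (fun t : ℂ => f (z + t • v)) (ball (0 : ℂ) |1|) := by
    apply DifferentiableOn.diffContOnCl
    rw [abs_one, closure_ball _ one_ne_zero]
    exact hd
  have h1 := h0.circleAverage
  rw [Real.circleAverage] at h1
  rw [h1, zero_smul, add_zero]

/-- Mean value property with a circled weight. -/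
theorem integral_circled [CompleteSpace F] {f : ℂ → F} {r : ℝ}
    (hf : DifferentiableOn ℂ f (ball 0 r)) {ρ : ℂ → ℝ}
    (hρ : Continuous ρ) (hs : HasCompactSupport ρ) (hr : tsupport ρ ⊆ ball 0 r)
    (hc : ∀ (c : ℂ) (v : ℂ), ‖c‖ = 1 → ρ (c • v) = ρ v) :
    ∫ v, ρ v • f v = (∫ v, ρ v) • f 0 := by
  have hpi : (0 : ℝ) ≤ 2 * Real.pi := by positivity
  -- continuity of `ρ • f`
  have hcg : Continuous fun v => ρ v • f v := by
    rw [continuous_iff_continuousAt]
    intro v
    by_cases hv : v ∈ tsupport ρ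
    · exact hρ.continuousAt.smul (hf.continuousOn.continuousAt (isOpen_ball.mem_nhds (hr hv)))
    · have h1 : (fun v => ρ v • f v) =ᶠ[𝓝 v] fun _ => 0 := by
        have h2 : (tsupport ρ)ᶜ ∈ 𝓝 v := (isClosed_tsupport ρ).isOpen_compl.mem_nhds hv
        filter_upwards [h2] with w hw
        rw [image_eq_zero_of_notMem_tsupport hw, zero_smul]
      exact continuousAt_const.congr h1.symm
  have hrot : ∀ θ : ℝ, ∫ v, ρ v • f (circleMap 0 1 θ • v) = ∫ v, ρ v • f v := by
    intro θ
    have hn : ‖circleMap 0 1 θ‖ = 1 := by simp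
    rw [← integral_unit (circleMap 0 1 θ) hn (fun v => ρ v • f v)]
    apply integral_congr_ae
    filter_upwards with v
    rw [hc _ _ hn]
  have hcont : Continuous (Function.uncurry fun (v : ℂ) (θ : ℝ) =>
      ρ v • f (circleMap 0 1 θ • v)) := by
    have h1 : (Function.uncurry fun (v : ℂ) (θ : ℝ) =>
      ρ v • f (circleMap 0 1 θ • v)) = (fun v => ρ v • f v) ∘
        fun p : ℂ × ℝ => circleMap 0 1 p.2 • p.1 := by
      funext p
      simp only [Function.uncurry, Function.comp]
      rw [hc _ _ (by simp)]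
    rw [h1]
    exact hcg.comp (((continuous_circleMap 0 1).comp continuous_snd).smul continuous_fst)
  have hint : Integrable (Function.uncurry fun (v : ℂ) (θ : ℝ) =>
      ρ v • f (circleMap 0 1 θ • v)) (volume.prod (volume.restrict (Set.Ioc 0 (2 * Real.pi)))) := by
    have hK : IsCompact (tsupport ρ ×ˢ Set.Icc (0 : ℝ) (2 * Real.pi)) :=
      hs.isCompact.prod isCompact_Icc
    have h1 : IntegrableOn (Function.uncurry fun (v : ℂ) (θ : ℝ) =>
        ρ v • f (circleMap 0 1 θ • v)) (tsupport ρ ×ˢ Set.Icc (0 : ℝ) (2 * Real.pi))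
        (volume.prod volume) := hcont.continuousOn.integrableOn_compact hK
    have h2 : IntegrableOn (Function.uncurry fun (v : ℂ) (θ : ℝ) =>
        ρ v • f (circleMap 0 1 θ • v)) (Set.univ ×ˢ Set.Icc (0 : ℝ) (2 * Real.pi))
        (volume.prod volume) := by
      apply h1.of_forall_sdiff_eq_zero (MeasurableSet.univ.prod measurableSet_Icc)
      rintro ⟨v, θ⟩ ⟨⟨_, h3⟩, h4⟩
      have h5 : v ∉ tsupport ρ := fun h => h4 ⟨h, h3⟩
      simp only [Function.uncurry_apply_pair]
      rw [image_eq_zero_of_notMem_tsupport h5, zero_smul]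
    have h3 := h2.mono_set (Set.prod_mono subset_rfl Set.Ioc_subset_Icc_self)
    rw [IntegrableOn, ← Measure.prod_restrict, Measure.restrict_univ] at h3
    exact h3
  have h1 : ∫ v, (2 * Real.pi)⁻¹ • ∫ θ in (0 : ℝ)..2 * Real.pi, ρ v • f (circleMap 0 1 θ • v)
      = (∫ v, ρ v) • f 0 := by
    rw [← integral_smul_const]
    apply integral_congr_ae
    filter_upwards with v
    by_cases hv : v ∈ tsupport ρ
    · have hv' : ‖v‖ < r := by simpa using hr hv
      have h2 := circle_mean hf hv'
      simp only [zero_add] at h2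
      rw [intervalIntegral.integral_smul, smul_comm, h2]
    · rw [image_eq_zero_of_notMem_tsupport hv]
      simp
  rw [← h1, integral_smul]
  simp only [intervalIntegral.integral_of_le hpi]
  rw [integral_integral_swap hint]
  simp only [hrot]
  rw [setIntegral_const, Measure.real, Real.volume_Ioc, sub_zero, ENNReal.toReal_ofReal hpi,
    smul_smul, inv_mul_cancel₀ (by positivity), one_smul]

/-! ### The circled mollifier -/

/-- A circled function with support in the closed unit polydisc. -/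
noncomputable def mol (v : ℂ) : ℝ := Real.smoothTransition (1 - ‖v‖ ^ 2)

theorem mol_contDiff : ContDiff ℝ ∞ mol := by
  have h1 : ContDiff ℝ ∞ (fun v : ℂ => 1 - ‖v‖ ^ 2) :=
    contDiff_const.sub (contDiff_norm_sq ℝ)
  exact Real.smoothTransition.contDiff.comp h1

theorem mol_nonneg (v : ℂ) : 0 ≤ mol v := Real.smoothTransition.nonneg _

theorem mol_eq_zero {v : ℂ} (hv : 1 ≤ ‖v‖) : mol v = 0 := by
  apply Real.smoothTransition.zero_of_nonpos
  have h3 : 1 ≤ ‖v‖ ^ 2 := one_le_pow₀ hv
  linarith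

theorem mol_circ (c : ℂ) (v : ℂ) (hc : ‖c‖ = 1) : mol (c • v) = mol v := by
  simp [mol, hc]

/-- The scaled mollifier. -/
noncomputable def molR (R : ℝ) (v : ℂ) : ℝ := mol (R⁻¹ • v)

theorem molR_contDiff (R : ℝ) : ContDiff ℝ ∞ (molR R) :=
  mol_contDiff.comp (contDiff_const_smul _)

theorem molR_circ (R : ℝ) (c : ℂ) (v : ℂ) (hc : ‖c‖ = 1) :
    molR R (c • v) = molR R v := by
  rw [molR, molR, smul_comm, mol_circ _ _ hc]

theorem molR_tsupport {R : ℝ} (hR : 0 < R) : tsupport (molR R) ⊆ closedBall 0 R := by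
  apply closure_minimal _ isClosed_closedBall
  intro v hv
  rw [mem_closedBall_zero_iff]
  by_contra h
  push Not at h
  apply hv
  rw [molR]
  apply mol_eq_zero
  rw [norm_smul, norm_inv, Real.norm_eq_abs, abs_of_pos hR, inv_mul_eq_div, le_div_iff₀ hR]
  linarith

theorem molR_hasCompactSupport {R : ℝ} (hR : 0 < R) : HasCompactSupport (molR R) :=
  HasCompactSupport.of_support_subset_isCompact (isCompact_closedBall 0 R)
    ((subset_tsupport _).trans (molR_tsupport hR))

theorem molR_pos {R : ℝ} (hR : 0 < R) : 0 < ∫ v, molR R v := by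
  apply (molR_contDiff R).continuous.integral_pos_of_hasCompactSupport_nonneg_nonzero
    (molR_hasCompactSupport hR) (x := 0)
  · intro v
    exact mol_nonneg _
  · simp [molR, mol]

theorem molR_neg (R : ℝ) (v : ℂ) : molR R (-v) = molR R v := by
  rw [← neg_one_smul ℂ v, molR_circ _ _ _ (by simp)]

/-! ### Convolutions -/

theorem holo_of_dzb {W : Set ℂ} (hW : IsOpen W) {f : ℂ → ℂ} (hf : DifferentiableOn ℝ f W)
    (h : ∀ z ∈ W, dzb f z = 0) : DifferentiableOn ℂ f W := by
  intro z hz
  have hd : DifferentiableAt ℝ f z := (hf z hz).differentiableAt (hW.mem_nhds hz)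
  have h2 : fderiv ℝ f z 1 + Complex.I * fderiv ℝ f z Complex.I = 0 := by
    have := h z hz
    rw [dzb] at this
    simpa using this
  have h3 : fderiv ℝ f z Complex.I = Complex.I * fderiv ℝ f z 1 := by
    have h4 : Complex.I * (fderiv ℝ f z 1 + Complex.I * fderiv ℝ f z Complex.I) = 0 := by
      rw [h2, mul_zero]
    rw [mul_add, ← mul_assoc, Complex.I_mul_I] at h4
    linear_combination -h4
  exact (differentiableAt_complex_iff_differentiableAt_real.2 ⟨hd, by
    rw [h3, smul_eq_mul]⟩).differentiableWithinAt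

theorem conv_holo {τ : ℂ → ℂ} (hτ : Integrable τ volume) {W : Set ℂ}
    (hw : ∀ κ : ℂ → ℂ, ContDiff ℝ ∞ κ → HasCompactSupport κ → tsupport κ ⊆ W →
      ∫ z, τ z * dzb κ z = 0) {κ : ℂ → ℂ}
    (hκ : ContDiff ℝ ∞ κ) (hs : HasCompactSupport κ) {V : Set ℂ} (hV : IsOpen V)
    (h : ∀ x ∈ V, ∀ z, z + x ∈ tsupport κ → z ∈ W) :
    DifferentiableOn ℂ (fun x => ∫ z, τ z * κ (z + x)) V := by
  set L : ℂ →L[ℝ] ℂ →L[ℝ] ℂ := ContinuousLinearMap.mul ℝ ℂ with hL
  have hτ' : LocallyIntegrable (fun z => τ (-z)) volume := hτ.comp_neg.locallyIntegrable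
  have hκ1 : ContDiff ℝ 1 κ := hκ.of_le (by exact_mod_cast le_top)
  have hsh : ∀ x, HasCompactSupport (fun z => κ (z + x)) := fun x =>
    hs.comp_homeomorph (Homeomorph.addRight x)
  have hneg : ∀ φ : ℂ → ℂ, ∀ x, ((fun z => τ (-z)) ⋆[L, volume] φ) x
      = ∫ z, τ z * φ (z + x) := by
    intro φ x
    rw [convolution_def]
    rw [← integral_neg_eq_self]
    apply integral_congr_ae
    filter_upwards with z
    simp [hL, add_comm]
  have hconv : (fun x => ∫ z, τ z * κ (z + x)) = (fun z => τ (-z)) ⋆[L, volume] κ := by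
    funext x
    rw [hneg]
  have hfd : ∀ x, HasFDerivAt (fun x => ∫ z, τ z * κ (z + x))
      (((fun z => τ (-z)) ⋆[L.precompR ℂ, volume] fderiv ℝ κ) x) x := by
    intro x
    rw [hconv]
    exact hs.hasFDerivAt_convolution_right L hτ' hκ1 x
  have hfderiv : ∀ x v, fderiv ℝ (fun x => ∫ z, τ z * κ (z + x)) x v =
      ∫ z, τ z * fderiv ℝ κ (z + x) v := by
    intro x v
    rw [(hfd x).fderiv, convolution_precompR_apply L hτ' (hs.fderiv ℝ)
      (hκ1.continuous_fderiv one_ne_zero), hneg]
  have hint : ∀ x v, Integrable (fun z => τ z * fderiv ℝ κ (z + x) v) volume := by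
    intro x v
    have h1 : Continuous fun z => fderiv ℝ κ (z + x) v := by
      have h1 := hκ1.continuous_fderiv one_ne_zero
      exact (h1.comp (continuous_id.add continuous_const)).clm_apply continuous_const
    have h2 : HasCompactSupport (fun z => fderiv ℝ κ (z + x) v) := by
      have h2 : HasCompactSupport (fun z => fderiv ℝ κ z v) :=
        (hs.fderiv ℝ).comp_left (g := fun T : ℂ →L[ℝ] ℂ => T v) (by simp)
      exact h2.comp_homeomorph (Homeomorph.addRight x)
    have := hτ.locallyIntegrable.integrable_smul_right_of_hasCompactSupport h1 h2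
    simpa only [smul_eq_mul] using this
  apply holo_of_dzb hV (fun x _ => (hfd x).differentiableAt.differentiableWithinAt)
  intro x hx
  have h1 := hw (fun z => κ (z + x)) (hκ.comp (contDiff_id.add contDiff_const)) (hsh x) (by
    intro z hz
    apply h x hx
    have h3 : tsupport (fun z => κ (z + x)) ⊆ (fun z => z + x) ⁻¹' tsupport κ := by
      apply closure_minimal
      · intro z hz
        exact subset_tsupport κ hz
      · exact (isClosed_tsupport κ).preimage (by fun_prop)
    exact h3 hz)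
  have h2 : Integrable (fun z => Complex.I * (τ z * fderiv ℝ κ (z + x) Complex.I)) volume :=
    (hint x Complex.I).const_mul _
  rw [dzb, hfderiv, hfderiv, smul_eq_mul, smul_eq_mul, ← integral_const_mul,
    ← integral_add (hint x 1) h2, ← integral_const_mul]
  rw [← h1]
  apply integral_congr_ae
  filter_upwards with z
  rw [dzb, fderiv_comp_add_right, smul_eq_mul, smul_eq_mul]
  ring

theorem fubini_conv {τ : ℂ → ℂ} (hτ : Integrable τ volume)
    {g ρ : ℂ → ℂ} (hg : Continuous g) (hgs : HasCompactSupport g)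
    (hρ : Continuous ρ) (hρs : HasCompactSupport ρ) :
    ∫ x, g x * ∫ v, ρ v * τ (x - v) = ∫ v, ρ v * ∫ z, τ z * g (z + v) := by
  have hint : Integrable (Function.uncurry fun x v => g x * (ρ v * τ (x - v)))
      (volume.prod volume) := by
    have h1 := (hρ.integrable_of_hasCompactSupport (μ := volume) hρs).convolution_integrand
      (ContinuousLinearMap.mul ℝ ℂ) hτ
    obtain ⟨M, hM⟩ := hg.bounded_above_of_compact_support hgs
    have h2 : Integrable (fun p : ℂ × ℂ =>
        g p.1 * ((ContinuousLinearMap.mul ℝ ℂ) (ρ p.2)) (τ (p.1 - p.2)))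
        (volume.prod volume) := by
      refine Integrable.mono' (h1.norm.const_mul M)
        ((hg.comp continuous_fst).aestronglyMeasurable.mul h1.aestronglyMeasurable) ?_
      filter_upwards with p
      rw [norm_mul]
      exact mul_le_mul_of_nonneg_right (hM _) (norm_nonneg _)
    refine h2.congr (Eventually.of_forall ?_)
    rintro ⟨x, v⟩
    rfl
  calc ∫ x, g x * ∫ v, ρ v * τ (x - v) = ∫ x, ∫ v, g x * (ρ v * τ (x - v)) := by
        apply integral_congr_ae
        filter_upwards with x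
        rw [integral_const_mul]
    _ = ∫ v, ∫ x, g x * (ρ v * τ (x - v)) := integral_integral_swap hint
    _ = ∫ v, ρ v * ∫ z, τ z * g (z + v) := by
        apply integral_congr_ae
        filter_upwards with v
        rw [← integral_const_mul,
          ← integral_add_right_eq_self (fun x => g x * (ρ v * τ (x - v))) v]
        apply integral_congr_ae
        filter_upwards with z
        rw [add_sub_cancel_right]
        ring

/-- Weyl's lemma for `∂̄`, on a small polydisc. -/
theorem weyl_ball {τ : ℂ → ℂ} {z₀ : ℂ} {R : ℝ} (hR : 0 < R)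
    (hτ : IntegrableOn τ (closedBall z₀ (3 * R)) volume)
    (hw : ∀ κ : ℂ → ℂ, ContDiff ℝ ∞ κ → HasCompactSupport κ →
      tsupport κ ⊆ ball z₀ (3 * R) → ∫ z, τ z * dzb κ z = 0) :
    ∃ f : ℂ → ℂ, DifferentiableOn ℂ f (ball z₀ R) ∧
      ∀ᵐ z ∂(volume : Measure ℂ), z ∈ ball z₀ R → τ z = f z := by
  set τ' : ℂ → ℂ := (closedBall z₀ (3 * R)).indicator τ with hτ'
  have hint : Integrable τ' volume := by
    rw [hτ', integrable_indicator_iff measurableSet_closedBall]
    exact hτ
  have hw' : ∀ κ : ℂ → ℂ, ContDiff ℝ ∞ κ → HasCompactSupport κ →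
      tsupport κ ⊆ ball z₀ (3 * R) → ∫ z, τ' z * dzb κ z = 0 := by
    intro κ h1 h2 h3
    rw [← hw κ h1 h2 h3]
    apply integral_congr_ae
    filter_upwards with z
    by_cases hz : z ∈ tsupport κ
    · rw [hτ', Set.indicator_of_mem (ball_subset_closedBall (h3 hz))]
    · rw [dzb_eq_zero_of_notMem hz, mul_zero, mul_zero]
  set ρ : ℂ → ℂ := fun v => ((molR R v : ℝ) : ℂ) with hρdef
  have hρc : ContDiff ℝ ∞ ρ := Complex.ofRealCLM.contDiff.comp (molR_contDiff R)
  have hρs : HasCompactSupport ρ :=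
    (molR_hasCompactSupport hR).comp_left (g := fun t : ℝ => (t : ℂ)) (by simp)
  have hρt : tsupport ρ ⊆ closedBall 0 R := by
    refine closure_minimal ?_ isClosed_closedBall
    intro v hv
    apply molR_tsupport hR
    apply subset_tsupport
    intro h
    apply hv
    simp [hρdef, h]
  have hρi : ∫ v, ρ v = ((∫ v, molR R v : ℝ) : ℂ) := integral_ofReal
  have hρ0 : ∫ v, ρ v ≠ 0 := by
    rw [hρi]
    exact_mod_cast (molR_pos hR).ne'
  set I : ℂ := ∫ v, ρ v with hI
  have hρn : ∀ v, ρ (-v) = ρ v := by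
    intro v
    simp only [hρdef, molR_neg]
  -- the holomorphic function
  set H : ℂ → ℂ := fun x => ∫ z, τ' z * ρ (z + x) with hH
  have hHd : DifferentiableOn ℂ H (ball (-z₀) R) := by
    apply conv_holo hint hw' hρc hρs isOpen_ball
    intro x hx z hz
    have h1 := hρt hz
    rw [mem_closedBall_zero_iff] at h1
    rw [mem_ball, dist_eq_norm] at hx ⊢
    calc ‖z - z₀‖ = ‖(z + x) - (x - -z₀)‖ := by congr 1; abel
      _ ≤ ‖z + x‖ + ‖x - -z₀‖ := norm_sub_le _ _
      _ < 3 * R := by linarith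
  set f : ℂ → ℂ := fun x => I⁻¹ * H (-x) with hf
  have hfd : DifferentiableOn ℂ f (ball z₀ R) := by
    apply DifferentiableOn.const_mul
    refine hHd.comp differentiable_id.neg.differentiableOn ?_
    intro x hx
    rw [mem_ball, dist_eq_norm] at hx ⊢
    have : -x - -z₀ = -(x - z₀) := by abel
    rw [this, norm_neg]
    exact hx
  have hfe : ∀ x, f x = I⁻¹ * ∫ v, ρ v * τ' (x - v) := by
    intro x
    simp only [hf, hH]
    congr 1
    rw [← integral_sub_left_eq_self (fun v => ρ v * τ' (x - v)) volume x]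
    apply integral_congr_ae
    filter_upwards with z
    have h1 : x - z = -(z + -x) := by abel
    rw [sub_sub_cancel, h1, hρn, mul_comm]
  refine ⟨f, hfd, ?_⟩
  have hdiff : LocallyIntegrableOn (fun z => τ' z - f z) (ball z₀ R) volume :=
    (hint.locallyIntegrable.locallyIntegrableOn _).sub
      (hfd.continuousOn.locallyIntegrableOn measurableSet_ball)
  have key : ∀ᵐ z ∂(volume : Measure ℂ), z ∈ ball z₀ R → τ' z - f z = 0 := by
    apply isOpen_ball.ae_eq_zero_of_integral_contDiff_smul_eq_zero hdiff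
    intro g hg hgs hgt
    set G : ℂ → ℂ := fun x => ((g x : ℝ) : ℂ) with hG
    have hGc : ContDiff ℝ ∞ G := Complex.ofRealCLM.contDiff.comp hg
    have hGs : HasCompactSupport G := hgs.comp_left (g := fun t : ℝ => (t : ℂ)) (by simp)
    have hGt : tsupport G ⊆ ball z₀ R := by
      refine (closure_mono ?_).trans hgt
      intro v hv h
      apply hv
      simp [hG, h]
    have h1 := fubini_conv hint hGc.continuous hGs hρc.continuous hρs
    have hHG : DifferentiableOn ℂ (fun x => ∫ z, τ' z * G (z + x)) (ball 0 (2 * R)) := by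
      apply conv_holo hint hw' hGc hGs isOpen_ball
      intro x hx z hz
      have h1 := hGt hz
      rw [mem_ball, dist_eq_norm] at h1 ⊢
      rw [mem_ball_zero_iff] at hx
      calc ‖z - z₀‖ = ‖(z + x - z₀) - x‖ := by congr 1; abel
        _ ≤ ‖z + x - z₀‖ + ‖x‖ := norm_sub_le _ _
        _ < 3 * R := by linarith
    have h2 := integral_circled (ρ := molR R) hHG (molR_contDiff R).continuous
      (molR_hasCompactSupport hR)
      ((molR_tsupport hR).trans (closedBall_subset_ball (by linarith))) (molR_circ R)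
    have h2' : ∫ v, ρ v * ∫ z, τ' z * G (z + v) = I * ∫ z, τ' z * G z := by
      rw [hρi]
      have h4 : ∀ v, ρ v * ∫ z, τ' z * G (z + v) =
          molR R v • ∫ z, τ' z * G (z + v) := by
        intro v
        rw [hρdef, Complex.real_smul]
      simp_rw [h4]
      rw [h2, Complex.real_smul]
      simp only [add_zero]
    have hi1 : Integrable (fun x => g x • τ' x) volume := by
      have := hint.locallyIntegrable.integrable_smul_left_of_hasCompactSupport hg.continuous hgs
      exact this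
    have hi2 : Integrable (fun x => g x • f x) volume := by
      have hc : Continuous (fun x => g x • f x) := by
        rw [continuous_iff_continuousAt]
        intro v
        by_cases hv : v ∈ tsupport g
        · exact hg.continuous.continuousAt.smul
            (hfd.continuousOn.continuousAt (isOpen_ball.mem_nhds (hgt hv)))
        · have h1 : (fun v => g v • f v) =ᶠ[𝓝 v] fun _ => 0 := by
            filter_upwards [(isClosed_tsupport g).isOpen_compl.mem_nhds hv] with w hw
            rw [image_eq_zero_of_notMem_tsupport hw, zero_smul]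
          exact continuousAt_const.congr h1.symm
      exact hc.integrable_of_hasCompactSupport hgs.smul_right
    have h3 : ∫ x, g x • f x = I⁻¹ * ∫ x, G x * ∫ v, ρ v * τ' (x - v) := by
      rw [← integral_const_mul]
      apply integral_congr_ae
      filter_upwards with x
      rw [hfe, Complex.real_smul]
      ring
    have h5 : ∫ x, g x • f x = ∫ x, g x • τ' x := by
      rw [h3, h1, h2', ← mul_assoc, inv_mul_cancel₀ hρ0, one_mul]
      apply integral_congr_ae
      filter_upwards with x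
      rw [Complex.real_smul, mul_comm]
    simp_rw [smul_sub]
    rw [integral_sub hi1 hi2, h5, sub_self]
  filter_upwards [key] with z hz hz'
  have h1 := hz hz'
  rw [hτ', Set.indicator_of_mem (ball_subset_closedBall
    (ball_subset_ball (by linarith) hz'))] at h1
  exact sub_eq_zero.1 h1

/-- Continuous functions which agree a.e. on an open set agree there. -/
theorem eqOn_of_ae {E F : Type*} [TopologicalSpace E] [MeasurableSpace E] {μ : Measure E}
    [μ.IsOpenPosMeasure] [TopologicalSpace F] [T2Space F]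
    {f g : E → F} {U : Set E} (hU : IsOpen U)
    (hf : ContinuousOn f U) (hg : ContinuousOn g U) (h : ∀ᵐ z ∂μ, z ∈ U → f z = g z) :
    Set.EqOn f g U := by
  intro x hx
  by_contra hne
  obtain ⟨A, B, hA, hB, hfA, hgB, hAB⟩ := t2_separation hne
  have hO : IsOpen (U ∩ f ⁻¹' A ∩ (U ∩ g ⁻¹' B)) :=
    (hf.isOpen_inter_preimage hU hA).inter (hg.isOpen_inter_preimage hU hB)
  have hpos : 0 < μ (U ∩ f ⁻¹' A ∩ (U ∩ g ⁻¹' B)) :=
    hO.measure_pos μ ⟨x, ⟨hx, hfA⟩, hx, hgB⟩
  have hzero : μ (U ∩ f ⁻¹' A ∩ (U ∩ g ⁻¹' B)) = 0 := by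
    refine measure_mono_null ?_ (ae_iff.1 h)
    rintro y ⟨⟨hyU, hyA⟩, -, hyB⟩ hh
    have := hh hyU
    exact Set.disjoint_left.1 hAB hyA (by
      rw [Set.mem_preimage] at hyB
      rw [Set.mem_preimage, this] at hyA
      rw [this]; exact hyB)
  rw [hzero] at hpos
  exact lt_irrefl _ hpos

/-- **Weyl's lemma for `∂̄`** on an open set of `ℂⁿ`: a locally integrable weakly holomorphic
function is a.e. equal to a holomorphic function. -/
theorem weyl_local {U : Set ℂ} (hU : IsOpen U) {τ : ℂ → ℂ}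
    (hτ : LocallyIntegrableOn τ U volume)
    (hw : ∀ κ : ℂ → ℂ, ContDiff ℝ ∞ κ → HasCompactSupport κ → tsupport κ ⊆ U →
      ∫ z, τ z * dzb κ z = 0) :
    ∃ f : ℂ → ℂ, DifferentiableOn ℂ f U ∧ τ =ᵐ[volume.restrict U] f := by
  -- local representatives
  have h1 : ∀ z₀ : U, ∃ (R : ℝ) (f : ℂ → ℂ), 0 < R ∧ ball (z₀ : ℂ) R ⊆ U ∧
      DifferentiableOn ℂ f (ball z₀ R) ∧
      ∀ᵐ z ∂(volume : Measure ℂ), z ∈ ball (z₀ : ℂ) R → τ z = f z := by
    rintro ⟨z₀, hz₀⟩
    obtain ⟨r, hr, hrU⟩ := Metric.isOpen_iff.1 hU z₀ hz₀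
    have hR : 0 < r / 4 := by positivity
    have h3 : closedBall z₀ (3 * (r / 4)) ⊆ U :=
      (closedBall_subset_ball (by linarith)).trans hrU
    obtain ⟨f, hf, hfe⟩ := weyl_ball hR
      (hτ.integrableOn_compact_subset h3 (isCompact_closedBall _ _))
      (fun κ a b c => hw κ a b (c.trans (ball_subset_closedBall.trans h3)))
    exact ⟨r / 4, f, hR, (ball_subset_ball (by linarith)).trans hrU, hf, hfe⟩
  choose R f hR hRU hf hfe using h1
  classical
  let F : ℂ → ℂ := fun z => if hz : z ∈ U then f ⟨z, hz⟩ z else 0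
  have hFe : ∀ z₀ : U, Set.EqOn F (f z₀) (ball z₀ (R z₀)) := by
    intro z₀ z hz
    have hzU : z ∈ U := hRU z₀ hz
    have hF : F z = f ⟨z, hzU⟩ z := by
      simp only [F, hzU, dif_pos]
    rw [hF]
    have hO : IsOpen (ball (z : ℂ) (R ⟨z, hzU⟩) ∩ ball (z₀ : ℂ) (R z₀)) :=
      isOpen_ball.inter isOpen_ball
    have h2 := eqOn_of_ae (μ := (volume : Measure ℂ)) hO
      ((hf ⟨z, hzU⟩).continuousOn.mono Set.inter_subset_left)
      ((hf z₀).continuousOn.mono Set.inter_subset_right) (by
        filter_upwards [hfe ⟨z, hzU⟩, hfe z₀] with w h3 h4 h5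
        rw [← h3 h5.1, h4 h5.2])
    exact h2 ⟨mem_ball_self (hR ⟨z, hzU⟩), hz⟩
  refine ⟨F, ?_, ?_⟩
  · intro z hz
    have h2 : DifferentiableAt ℂ (f ⟨z, hz⟩) z :=
      (hf ⟨z, hz⟩).differentiableAt (isOpen_ball.mem_nhds (mem_ball_self (hR ⟨z, hz⟩)))
    refine (h2.congr_of_eventuallyEq ?_).differentiableWithinAt
    filter_upwards [isOpen_ball.mem_nhds (mem_ball_self (hR ⟨z, hz⟩))] with w hw
    exact hFe ⟨z, hz⟩ hw
  · rw [Filter.EventuallyEq, ae_restrict_iff' hU.measurableSet]
    -- countable cover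
    obtain ⟨T, hT⟩ := TopologicalSpace.isOpen_iUnion_countable
      (fun z₀ : U => ball (z₀ : ℂ) (R z₀)) (fun _ => isOpen_ball)
    have hcov : U ⊆ ⋃ z₀ ∈ T, ball (z₀ : ℂ) (R z₀) := by
      rw [hT.2]
      intro z hz
      exact Set.mem_iUnion.2 ⟨⟨z, hz⟩, mem_ball_self (hR ⟨z, hz⟩)⟩
    have h3 : ∀ᵐ z ∂(volume : Measure ℂ), ∀ z₀ ∈ T,
        z ∈ ball (z₀ : ℂ) (R z₀) → τ z = f z₀ z := by
      rw [ae_ball_iff hT.1]
      intro z₀ _
      exact hfe z₀
    filter_upwards [h3] with z hz hzU
    obtain ⟨z₀, hz₀, hzb⟩ := Set.mem_iUnion₂.1 (hcov hzU)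
    rw [hz z₀ hz₀ hzb, hFe z₀ hzb]


end Vale.Agent.P253.R2.H66.Weyl
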