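import Vale.Agent.P253.R2.H66.Weight
import Vale.Agent.P253.R2.H66.Weyl

/-! P253 (helper66): preparations for the `L²` estimate on the punctured disc. -/

open Complex Filter Topology Set Metric MeasureTheory
open scoped ContDiff InnerProductSpace ComplexConjugate

noncomputable section

namespace Vale.Agent.P253.R2.H66

/-- the punctured ball -/
def pb (R : ℝ) : Set ℂ := ball 0 R \ {0}

theorem isOpen_pb (R : ℝ) : IsOpen (pb R) := isOpen_ball.sdiff isClosed_singleton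

theorem mem_pb {R : ℝ} {z : ℂ} : z ∈ pb R ↔ ‖z‖ < R ∧ z ≠ 0 := by
  simp [pb]

section ops

variable {E : Type*} [NormedAddCommGroup E] [InnerProductSpace ℂ E] [CompleteSpace E]

/-- Facts about a positive operator `k` with inverse `h`. -/
theorem sym_of_nonneg {k : E →L[ℂ] E} (hk : 0 ≤ k) (v w : E) : ⟪v, k w⟫_ℂ = ⟪k v, w⟫_ℂ := by
  have h2 : k.IsPositive := by
    rw [← ContinuousLinearMap.nonneg_iff_isPositive]; exact hk
  exact (h2.isSymmetric v w).symm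

theorem re_nonneg_of_nonneg {k : E →L[ℂ] E} (hk : 0 ≤ k) (v : E) : 0 ≤ (⟪v, k v⟫_ℂ).re := by
  have h2 : k.IsPositive := by
    rw [← ContinuousLinearMap.nonneg_iff_isPositive]; exact hk
  exact h2.re_inner_nonneg_right v

theorem inv_sym {k h : E →L[ℂ] E} (hk : 0 ≤ k) (hkh : ∀ v, k (h v) = v) (v w : E) :
    ⟪v, h w⟫_ℂ = ⟪h v, w⟫_ℂ := by
  conv_lhs => rw [← hkh v]
  conv_rhs => rw [← hkh w]
  rw [sym_of_nonneg hk]

theorem inv_re_nonneg {k h : E →L[ℂ] E} (hk : 0 ≤ k) (hkh : ∀ v, k (h v) = v) (v : E) :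
    0 ≤ (⟪v, h v⟫_ℂ).re := by
  have h1 : ⟪v, h v⟫_ℂ = ⟪h v, k (h v)⟫_ℂ := by
    rw [hkh, inv_sym hk hkh]
  rw [h1]
  exact re_nonneg_of_nonneg hk _

theorem inv_re_add_le {k h : E →L[ℂ] E} (hk : 0 ≤ k) (hkh : ∀ v, k (h v) = v) (v w : E) :
    (⟪v + w, h (v + w)⟫_ℂ).re ≤ 2 * (⟪v, h v⟫_ℂ).re + 2 * (⟪w, h w⟫_ℂ).re := by
  have h1 := inv_re_nonneg hk hkh (v - w)
  simp only [map_sub, map_add, inner_sub_left, inner_sub_right, inner_add_left, inner_add_right,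
    Complex.add_re, Complex.sub_re] at h1 ⊢
  linarith

/-- lower bound for the inverse -/
theorem norm_sq_le_inv {k h : E →L[ℂ] E} (hk : 0 ≤ k) (hkh : ∀ v, k (h v) = v) (v : E) :
    ‖v‖ ^ 2 ≤ ‖k‖ * (⟪v, h v⟫_ℂ).re := by
  obtain ⟨hs, hss⟩ := sqrt_facts hk
  set B := CFC.sqrt k with hB
  have h2 : (⟪v, h v⟫_ℂ).re = ‖B (h v)‖ ^ 2 := by
    rw [← inner_self_eq_norm_sq (𝕜 := ℂ), ← hs, hss, hkh]; rfl
  have h3 : ‖v‖ ≤ ‖B‖ * ‖B (h v)‖ := by
    calc ‖v‖ = ‖B (B (h v))‖ := by rw [hss, hkh]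
      _ ≤ ‖B‖ * ‖B (h v)‖ := B.le_opNorm _
  have h4 : ‖B‖ ^ 2 ≤ ‖k‖ := by
    have h5 : ∀ w, ‖B w‖ ^ 2 ≤ ‖k‖ * ‖w‖ ^ 2 := by
      intro w
      have h6 : ‖B w‖ ^ 2 = (⟪w, k w⟫_ℂ).re := by
        rw [← inner_self_eq_norm_sq (𝕜 := ℂ), hs, hss]; rfl
      rw [h6]
      calc (⟪w, k w⟫_ℂ).re ≤ ‖⟪w, k w⟫_ℂ‖ := Complex.re_le_norm _
        _ ≤ ‖w‖ * ‖k w‖ := norm_inner_le_norm _ _
        _ ≤ ‖w‖ * (‖k‖ * ‖w‖) := by gcongr; exact k.le_opNorm w
        _ = ‖k‖ * ‖w‖ ^ 2 := by ring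
    have h7 : ‖B‖ ≤ √‖k‖ := by
      apply B.opNorm_le_bound (Real.sqrt_nonneg _)
      intro w
      apply le_of_sq_le_sq _ (by positivity)
      rw [mul_pow, Real.sq_sqrt (norm_nonneg _)]
      exact h5 w
    calc ‖B‖ ^ 2 ≤ √‖k‖ ^ 2 := by gcongr
      _ = ‖k‖ := Real.sq_sqrt (norm_nonneg _)
  rw [h2]
  calc ‖v‖ ^ 2 ≤ (‖B‖ * ‖B (h v)‖) ^ 2 := by gcongr
    _ = ‖B‖ ^ 2 * ‖B (h v)‖ ^ 2 := by ring
    _ ≤ ‖k‖ * ‖B (h v)‖ ^ 2 := by gcongr

end ops

section weyl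

variable {E : Type*} [NormedAddCommGroup E] [InnerProductSpace ℂ E] [CompleteSpace E]

/-- local integrability from the weighted integrability -/
theorem locInt_of_weight {Q : Set ℂ} (hQ : IsOpen Q) {k h : ℂ → E →L[ℂ] E}
    (hk : ContinuousOn k Q) (hpos : ∀ z ∈ Q, 0 ≤ k z) (hkh : ∀ z ∈ Q, ∀ v, k z (h z v) = v)
    {u : ℂ → E} (hu : AEStronglyMeasurable u (volume.restrict Q))
    (hi : Integrable (fun z => (⟪u z, h z (u z)⟫_ℂ).re) (volume.restrict Q)) :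
    LocallyIntegrableOn u Q volume := by
  rw [locallyIntegrableOn_iff hQ.isLocallyClosed]
  intro K hKQ hK
  obtain ⟨C, hC⟩ := hK.exists_bound_of_continuousOn (hk.mono hKQ)
  have h1 : IntegrableOn (fun z => C * (⟪u z, h z (u z)⟫_ℂ).re + 1) K volume := by
    refine Integrable.add ?_ (integrableOn_const hK.measure_lt_top.ne)
    exact (hi.mono_measure (Measure.restrict_mono hKQ le_rfl)).const_mul C
  refine Integrable.mono' h1 (hu.mono_measure (Measure.restrict_mono hKQ le_rfl)) ?_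
  filter_upwards [ae_restrict_mem hK.measurableSet] with z hz
  have h2 := norm_sq_le_inv (hpos z (hKQ hz)) (hkh z (hKQ hz)) (u z)
  have h3 := inv_re_nonneg (hpos z (hKQ hz)) (hkh z (hKQ hz)) (u z)
  have h4 : ‖k z‖ * (⟪u z, h z (u z)⟫_ℂ).re ≤ C * (⟪u z, h z (u z)⟫_ℂ).re := by
    gcongr; exact hC z hz
  nlinarith [sq_nonneg (‖u z‖ - 1)]

/-- vector valued Weyl lemma -/
theorem weyl_vec [FiniteDimensional ℂ E] {Q : Set ℂ} (hQ : IsOpen Q) {X : ℂ → E}
    (hX : LocallyIntegrableOn X Q volume)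
    (hw : ∀ β ∈ testSub E Q, ∫ z in Q, ⟪X z, dz β z⟫_ℂ = 0) :
    ∃ W : ℂ → E, DifferentiableOn ℂ W Q ∧ X =ᵐ[volume.restrict Q] W := by
  let b := stdOrthonormalBasis ℂ E
  have key : ∀ i, ∃ f : ℂ → ℂ, DifferentiableOn ℂ f Q ∧
      (fun z => ⟪b i, X z⟫_ℂ) =ᵐ[volume.restrict Q] f := by
    intro i
    apply Weyl.weyl_local hQ
    · have : (fun z => ⟪b i, X z⟫_ℂ) = fun z => (innerSL ℂ (b i)) (X z) := rfl
      rw [this, locallyIntegrableOn_iff hQ.isLocallyClosed]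
      intro K hKQ hK
      exact (innerSL ℂ (b i)).integrable_comp ((locallyIntegrableOn_iff hQ.isLocallyClosed).1 hX
        K hKQ hK)
    · intro κ hκ hκc hκs
      set β : ℂ → E := fun z => conj (κ z) • b i with hβ
      have hβs : tsupport β ⊆ tsupport κ := tsupport_subset_of_zero fun z hz => by simp [hβ, hz]
      have hβt : β ∈ testSub E Q := by
        refine ⟨?_, hκc.mono' ((subset_tsupport _).trans hβs), hβs.trans hκs⟩
        have : ContDiff ℝ ∞ (fun z => conj (κ z)) := (conjCLE : ℂ →L[ℝ] ℂ).contDiff.comp hκ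
        exact this.smul contDiff_const
      have h1 := hw β hβt
      have hκd : ∀ z, DifferentiableAt ℝ κ z := fun z => (hκ.differentiable (by simp)) z
      have h2 : ∀ z, dz β z = conj (dzb κ z) • b i := by
        intro z
        have h3 : DifferentiableAt ℝ (fun z => conj (κ z)) z :=
          (conjCLE : ℂ →L[ℝ] ℂ).differentiableAt.comp z (hκd z)
        rw [hβ, dz_smul h3 (differentiableAt_const _), dz_const, dz_conj (hκd z)]
        simp
      have h3 : ∀ z, ⟪X z, dz β z⟫_ℂ = conj (⟪b i, X z⟫_ℂ * dzb κ z) := by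
        intro z
        rw [h2, inner_smul_right, map_mul, inner_conj_symm, mul_comm]
      simp only [h3] at h1
      rw [integral_conj, map_eq_zero] at h1
      rw [← h1]
      symm
      apply setIntegral_eq_integral_of_forall_compl_eq_zero
      intro z hz
      rw [dzb_eq_zero_of_notMem fun h => hz (hκs h), mul_zero]
  choose f hf hfe using key
  refine ⟨fun z => ∑ i, f i z • b i, ?_, ?_⟩
  · refine DifferentiableOn.fun_sum fun i _ => (hf i).smul_const _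
  · have h1 : ∀ᵐ z ∂(volume.restrict Q), ∀ i, ⟪b i, X z⟫_ℂ = f i z := by
      rw [ae_all_iff]
      exact hfe
    filter_upwards [h1] with z hz
    rw [← b.sum_repr' (X z)]
    refine Finset.sum_congr rfl fun i _ => ?_
    rw [hz i]

end weyl

end Vale.Agent.P253.R2.H66
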