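import Vale.Agent.P253.R2.H66.Est1

/-! P253 (helper66): the `L²` estimate on the punctured disc (fixed scale). -/

open Complex Filter Topology Set Metric MeasureTheory
open scoped ContDiff InnerProductSpace ComplexConjugate

noncomputable section

namespace Vale.Agent.P253.R2.H66

/-! ### the cutoff -/

/-- the cutoff profile: `1` for `t ≤ 1/4`, `0` for `t ≥ 1` -/
def eta (t : ℝ) : ℝ := Real.smoothTransition ((1 - t) * (4 / 3))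

theorem eta_contDiff : ContDiff ℝ ∞ eta :=
  Real.smoothTransition.contDiff.comp ((contDiff_const.sub contDiff_id).mul contDiff_const)

theorem eta_one {t : ℝ} (h : t ≤ 1 / 4) : eta t = 1 :=
  Real.smoothTransition.one_of_one_le (by linarith)

theorem eta_zero {t : ℝ} (h : 1 ≤ t) : eta t = 0 :=
  Real.smoothTransition.zero_of_nonpos (by linarith)

theorem eta_nonneg (t : ℝ) : 0 ≤ eta t := Real.smoothTransition.nonneg _

theorem eta_le_one (t : ℝ) : eta t ≤ 1 := Real.smoothTransition.le_one _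

theorem exists_eta_bound : ∃ K0 : ℝ, 0 < K0 ∧ ∀ t ∈ Icc (1 / 4 : ℝ) 1, |deriv eta t| ≤ K0 := by
  have hc : Continuous (deriv eta) :=
    (eta_contDiff.of_le (by exact_mod_cast le_top : (1 : WithTop ℕ∞) ≤ ∞)).continuous_deriv le_rfl
  obtain ⟨C, hC⟩ := isCompact_Icc.exists_bound_of_continuousOn (s := Icc (1 / 4 : ℝ) 1)
    hc.continuousOn
  refine ⟨max C 1, by positivity, fun t ht => (hC t ht).trans (le_max_left _ _)⟩

/-- the cutoff function -/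
def chi (A : ℝ) (z : ℂ) : ℂ := ((eta (A * ‖z‖ ^ 2) : ℝ) : ℂ)

theorem chi_contDiff (A : ℝ) : ContDiff ℝ ∞ (chi A) :=
  ofRealCLM.contDiff.comp (eta_contDiff.comp (contDiff_const.mul (contDiff_norm_sq ℝ)))

theorem dzb_chi (A : ℝ) (z : ℂ) :
    dzb (chi A) z = ((deriv eta (A * ‖z‖ ^ 2) * A : ℝ) : ℂ) * z := by
  have hd1 : DifferentiableAt ℝ (fun z : ℂ => ‖z‖ ^ 2) z :=
    (contDiff_norm_sq ℝ (n := 1)).contDiffAt.differentiableAt one_ne_zero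
  have hη : HasDerivAt eta (deriv eta (A * ‖z‖ ^ 2)) (A * ‖z‖ ^ 2) :=
    ((eta_contDiff.differentiable (by simp)) _).hasDerivAt
  have h1 : HasFDerivAt (fun w : ℂ => A * ‖w‖ ^ 2) (A • fderiv ℝ (fun z : ℂ => ‖z‖ ^ 2) z) z :=
    hd1.hasFDerivAt.const_mul A
  have h2 : HasFDerivAt (fun w : ℂ => eta (A * ‖w‖ ^ 2))
      (deriv eta (A * ‖z‖ ^ 2) • (A • fderiv ℝ (fun z : ℂ => ‖z‖ ^ 2) z)) z := by
    have := HasDerivAt.comp_hasFDerivAt (h₂ := eta) z hη h1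
    exact this
  have h3 : HasFDerivAt (chi A)
      (ofRealCLM.comp (deriv eta (A * ‖z‖ ^ 2) • (A • fderiv ℝ (fun z : ℂ => ‖z‖ ^ 2) z))) z :=
    ofRealCLM.hasFDerivAt.comp z h2
  have h4 : HasFDerivAt (fun w : ℂ => ((‖w‖ ^ 2 : ℝ) : ℂ))
      (ofRealCLM.comp (fderiv ℝ (fun z : ℂ => ‖z‖ ^ 2) z)) z :=
    ofRealCLM.hasFDerivAt.comp z hd1.hasFDerivAt
  have h5 := dzb_norm_sq z
  rw [dzb, h4.fderiv] at h5
  rw [dzb, h3.fderiv]
  simp only [ContinuousLinearMap.comp_apply, smul_apply, smul_eq_mul, ofRealCLM_apply,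
    ofReal_mul] at h5 ⊢
  have h6 : ((deriv eta (A * ‖z‖ ^ 2) : ℝ) : ℂ) * (A : ℂ) *
      (1 / 2 * (((fderiv ℝ (fun z : ℂ => ‖z‖ ^ 2) z 1 : ℝ) : ℂ) +
        I * ((fderiv ℝ (fun z : ℂ => ‖z‖ ^ 2) z I : ℝ) : ℂ))) =
      ((deriv eta (A * ‖z‖ ^ 2) : ℝ) : ℂ) * (A : ℂ) * z := by rw [h5]
  rw [← h6]
  ring

/-- the annulus -/
def ann (A : ℝ) : Set ℂ := {z | 1 / 4 ≤ A * ‖z‖ ^ 2 ∧ A * ‖z‖ ^ 2 ≤ 1}

theorem isClosed_ann (A : ℝ) : IsClosed (ann A) := by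
  have hc : Continuous fun z : ℂ => A * ‖z‖ ^ 2 := by fun_prop
  exact (isClosed_le continuous_const hc).inter (isClosed_le hc continuous_const)

theorem dzb_chi_eq_zero {A : ℝ} {z : ℂ} (hz : z ∉ ann A) : dzb (chi A) z = 0 := by
  have hc : Continuous fun z : ℂ => A * ‖z‖ ^ 2 := by fun_prop
  have : A * ‖z‖ ^ 2 < 1 / 4 ∨ 1 < A * ‖z‖ ^ 2 := by
    by_contra h
    push Not at h
    exact hz h
  rcases this with h | h
  · have h1 : chi A =ᶠ[𝓝 z] fun _ => 1 := by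
      filter_upwards [(isOpen_lt hc continuous_const).mem_nhds h] with w hw
      rw [chi, eta_one (le_of_lt hw), ofReal_one]
    rw [dzb_congr h1, dzb_const]
  · have h1 : chi A =ᶠ[𝓝 z] fun _ => 0 := by
      filter_upwards [(isOpen_lt continuous_const hc).mem_nhds h] with w hw
      rw [chi, eta_zero (le_of_lt hw), ofReal_zero]
    rw [dzb_congr h1, dzb_const]

theorem norm_dzb_chi_sq {K0 : ℝ} (hK : ∀ t ∈ Icc (1 / 4 : ℝ) 1, |deriv eta t| ≤ K0) {A : ℝ}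
    (hA : 0 < A) (z : ℂ) (hz : z ∈ ann A) : ‖dzb (chi A) z‖ ^ 2 ≤ K0 ^ 2 * A := by
  rw [dzb_chi, norm_mul, Complex.norm_real, Real.norm_eq_abs, abs_mul, abs_of_pos hA, mul_pow,
    mul_pow]
  have h1 := hK _ ⟨hz.1, hz.2⟩
  have h2 : |deriv eta (A * ‖z‖ ^ 2)| ^ 2 ≤ K0 ^ 2 := by gcongr
  calc |deriv eta (A * ‖z‖ ^ 2)| ^ 2 * A ^ 2 * ‖z‖ ^ 2
      = |deriv eta (A * ‖z‖ ^ 2)| ^ 2 * (A * (A * ‖z‖ ^ 2)) := by ring
    _ ≤ K0 ^ 2 * (A * 1) := by gcongr; exact hz.2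
    _ = K0 ^ 2 * A := by ring

/-! ### the weights -/

/-- `wexp` as a real number -/
def wre (a κ A : ℝ) (z : ℂ) : ℝ :=
  a * Real.log (‖z‖ ^ 2) + κ * Real.log (1 + A * ‖z‖ ^ 2)

theorem wexp_eq (a κ A : ℝ) (z : ℂ) : wexp a κ A z = (wre a κ A z : ℂ) := rfl

section facts

variable {j : ℕ} {ε : ℝ} {z : ℂ}

theorem rpow_eq_exp (hz : z ≠ 0) :
    ‖z‖ ^ (-(2 + ε)) = Real.exp (-((1 + ε / 2) * Real.log (‖z‖ ^ 2))) := by
  rw [Real.rpow_def_of_pos (norm_pos_iff.2 hz), Real.log_pow]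
  congr 1
  push_cast
  ring

theorem wre_le_of (hj : 1 ≤ j) (h1 : ‖z‖ ≤ 1) :
    Real.exp ((1 / j : ℝ) * Real.log (1 + (4 : ℝ) ^ j * ‖z‖ ^ 2)) ≤ 5 := by
  have hj' : (0 : ℝ) < j := by exact_mod_cast hj
  have h2 : 1 + (4 : ℝ) ^ j * ‖z‖ ^ 2 ≤ 5 ^ j := by
    have h3 : (4 : ℝ) ^ j * ‖z‖ ^ 2 ≤ 4 ^ j := by
      have : ‖z‖ ^ 2 ≤ 1 := pow_le_one₀ (norm_nonneg _) h1
      nlinarith [pow_pos (show (0 : ℝ) < 4 by norm_num) j]
    have h4 : (1 : ℝ) + 4 ^ j ≤ 5 ^ j := by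
      have : ∀ m : ℕ, (1 : ℝ) + 4 ^ (m + 1) ≤ 5 ^ (m + 1) := by
        intro m
        induction m with
        | zero => norm_num
        | succ m ih =>
          rw [pow_succ 5, pow_succ 4]
          nlinarith [pow_pos (show (0 : ℝ) < 4 by norm_num) (m + 1),
            pow_pos (show (0 : ℝ) < 5 by norm_num) (m + 1)]
      obtain ⟨m, rfl⟩ : ∃ m, j = m + 1 := ⟨j - 1, by omega⟩
      exact this m
    linarith
  have h3 : Real.log (1 + (4 : ℝ) ^ j * ‖z‖ ^ 2) ≤ j * Real.log 5 := by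
    rw [← Real.log_pow]
    exact Real.log_le_log (by positivity) h2
  calc Real.exp ((1 / j : ℝ) * Real.log (1 + (4 : ℝ) ^ j * ‖z‖ ^ 2))
      ≤ Real.exp ((1 / j : ℝ) * (j * Real.log 5)) := by gcongr
    _ = 5 := by
        rw [← mul_assoc, one_div, inv_mul_cancel₀ hj'.ne', one_mul, Real.exp_log (by norm_num)]

theorem weight_le (hj : 1 ≤ j) (h1 : ‖z‖ ≤ 1) (hz : z ≠ 0) :
    ‖z‖ ^ (-(2 + ε)) ≤ 5 * Real.exp (-(wre (1 + ε / 2) (1 / j) (4 ^ j) z)) := by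
  rw [rpow_eq_exp hz, wre, neg_add, Real.exp_add, Real.exp_neg (1 / (j : ℝ) * _)]
  have h2 := wre_le_of hj h1
  set x := Real.exp ((1 / j : ℝ) * Real.log (1 + (4 : ℝ) ^ j * ‖z‖ ^ 2)) with hx
  have hx0 : 0 < x := Real.exp_pos _
  set y := Real.exp (-((1 + ε / 2) * Real.log (‖z‖ ^ 2))) with hy
  have hy0 : 0 < y := Real.exp_pos _
  have h3 : 1 ≤ 5 * x⁻¹ := by
    rw [← div_eq_mul_inv, le_div_iff₀ hx0]; linarith
  nlinarith

theorem weight_ge (hz : z ≠ 0) :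
    Real.exp (-(wre (1 + ε / 2) (1 / j) (4 ^ j) z)) ≤ ‖z‖ ^ (-(2 + ε)) := by
  rw [rpow_eq_exp hz, wre]
  apply Real.exp_le_exp.2
  have h1 : 0 ≤ Real.log (1 + (4 : ℝ) ^ j * ‖z‖ ^ 2) := Real.log_nonneg (by
    have : 0 ≤ (4 : ℝ) ^ j * ‖z‖ ^ 2 := by positivity
    linarith)
  have h2 : 0 ≤ (1 / j : ℝ) * Real.log (1 + (4 : ℝ) ^ j * ‖z‖ ^ 2) := by positivity
  linarith

theorem one_le_weight (hε : 0 ≤ ε) (h1 : ‖z‖ ≤ 1) (hz : z ≠ 0) : 1 ≤ ‖z‖ ^ (-(2 + ε)) :=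
  Real.one_le_rpow_of_pos_of_le_one_of_nonpos (norm_pos_iff.2 hz) h1 (by linarith)

end facts

end Vale.Agent.P253.R2.H66
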