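import Vale.Agent.P253.R2.H66.Est2

/-! P253 (helper66): the `L²` estimate on the punctured disc (fixed scale), main part. -/

open Complex Filter Topology Set Metric MeasureTheory
open scoped ContDiff InnerProductSpace ComplexConjugate

noncomputable section

namespace Vale.Agent.P253.R2.H66

variable {E : Type*} [NormedAddCommGroup E] [InnerProductSpace ℂ E] [FiniteDimensional ℂ E]

theorem cexp_wexp (a κ A : ℝ) (z : ℂ) : cexp (wexp a κ A z) = ((Real.exp (wre a κ A z) : ℝ) : ℂ) := by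
  rw [wexp_eq, Complex.ofReal_exp]

theorem cexp_neg_wexp (a κ A : ℝ) (z : ℂ) :
    cexp (-wexp a κ A z) = ((Real.exp (-wre a κ A z) : ℝ) : ℂ) := by
  rw [wexp_eq, ← Complex.ofReal_neg, Complex.ofReal_exp]

/-- **The `L²` estimate.** -/
theorem est {R : ℝ} (hR0 : 0 < R) (hR1 : R ≤ 1) {G g : ℂ → E →L[ℂ] E}
    (hG : ContDiffOn ℝ 2 G (pb R)) (hpos : ∀ z ∈ pb R, 0 ≤ G z) (hg : ContinuousOn g (pb R))
    (hGg : ∀ z ∈ pb R, ∀ v, G z (g z v) = v) (hgG : ∀ z ∈ pb R, ∀ v, g z (G z v) = v)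
    (hcurv : ∀ z ∈ pb R, CurvGE G (fun _ => 0) z) :
    ∃ K : ℝ, 0 < K ∧ ∀ V : ℂ → E, DifferentiableOn ℂ V (pb R) →
      IntegrableOn (fun z => (⟪V z, g z (V z)⟫_ℂ).re) (pb R) →
      ∀ j : ℕ, 1 ≤ j → 1 < (4 : ℝ) ^ j * R ^ 2 → ∀ ε : ℝ, 0 < ε → ε ≤ 1 →
      ∃ W : ℂ → E, DifferentiableOn ℂ W (pb R) ∧
        IntegrableOn (fun z => (⟪W z, g z (W z)⟫_ℂ).re) (pb R) ∧
        ∫ z in pb R, (⟪W z, g z (W z)⟫_ℂ).re ≤
          2 * (∫ z in {z ∈ pb R | (4 : ℝ) ^ j * ‖z‖ ^ 2 ≤ 1}, (⟪V z, g z (V z)⟫_ℂ).re) +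
            K * j * ∫ z in ann (4 ^ j), ‖z‖ ^ (-(2 + ε)) * (⟪V z, g z (V z)⟫_ℂ).re ∧
        IntegrableOn (fun z => ‖z‖ ^ (-(2 + ε)) * (⟪W z - V z, g z (W z - V z)⟫_ℂ).re)
          {z ∈ pb R | (4 : ℝ) ^ j * ‖z‖ ^ 2 < 1 / 4} := by
  obtain ⟨K0, hK0, hK⟩ := exists_eta_bound
  refine ⟨40 * K0 ^ 2, by positivity, ?_⟩
  intro V hV hVi j hj hjR ε hε hε1
  have hQ : IsOpen (pb R) := isOpen_pb R
  have hQm : MeasurableSet (pb R) := hQ.measurableSet
  have hQ0 : pb R ⊆ {0}ᶜ := fun z hz => (mem_pb.1 hz).2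
  set A : ℝ := (4 : ℝ) ^ j with hA
  have hA0 : 0 < A := by positivity
  have hj0 : (0 : ℝ) < j := by exact_mod_cast hj
  set κ : ℝ := 1 / j with hκ
  have hκ0 : 0 < κ := by positivity
  set a : ℝ := 1 + ε / 2 with ha
  set p := wexp a κ A with hp
  have hpc : ContDiffOn ℝ 2 p (pb R) := (contDiffOn_wexp a κ hA0.le).mono hQ0
  have hpr : ∀ z ∈ pb R, conj (p z) = p z := fun z _ => by rw [hp, wexp_eq, conj_ofReal]
  set k : ℂ → E →L[ℂ] E := fun z => cexp (p z) • G z with hk
  set h : ℂ → E →L[ℂ] E := fun z => cexp (-p z) • g z with hh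
  set ρ : ℂ → ℝ := fun z => κ * A / (1 + A * ‖z‖ ^ 2) ^ 2 with hρ
  have hsym : ∀ z ∈ pb R, ∀ v w, ⟪v, G z w⟫_ℂ = ⟪G z v, w⟫_ℂ := fun z hz v w =>
    sym_of_nonneg (hpos z hz) v w
  have hkc : ContDiffOn ℝ 2 k (pb R) := by
    have h1 : ContDiffOn ℝ 2 (fun z => cexp (p z)) (pb R) := hpc.cexp
    exact h1.smul hG
  have hkpos : ∀ z ∈ pb R, 0 ≤ k z := by
    intro z hz
    have h1 : k z = Real.exp (wre a κ A z) • G z := by
      simp only [hk, hp, cexp_wexp]
      exact (RCLike.real_smul_eq_coe_smul (K := ℂ) _ _).symm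
    rw [h1]
    exact smul_nonneg (Real.exp_pos _).le (hpos z hz)
  have hhc : ContinuousOn h (pb R) := by
    have h1 : ContinuousOn (fun z => cexp (-p z)) (pb R) := hpc.continuousOn.neg.cexp
    exact h1.smul hg
  have hkh : ∀ z ∈ pb R, ∀ v, k z (h z v) = v := by
    intro z hz v
    simp only [hk, hh, smul_apply, map_smul, hGg z hz, smul_smul]
    rw [← Complex.exp_add, neg_add_cancel, Complex.exp_zero, one_smul]
  have hhk : ∀ z ∈ pb R, ∀ v, h z (k z v) = v := by
    intro z hz v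
    simp only [hk, hh, smul_apply, map_smul, hgG z hz, smul_smul]
    rw [← Complex.exp_add, add_neg_cancel, Complex.exp_zero, one_smul]
  have hρc : ContinuousOn ρ (pb R) := by
    apply Continuous.continuousOn
    have h2 : ∀ z : ℂ, (1 + A * ‖z‖ ^ 2) ^ 2 ≠ 0 := fun z => by positivity
    exact continuous_const.div (by fun_prop) h2
  have hρ0 : ∀ z, 0 < ρ z := fun z => by simp only [hρ]; positivity
  have hkcurv : ∀ z ∈ pb R, CurvGE k ρ z := by
    intro z hz b c
    have h1 := curvGE_exp hQ hG hsym hpc hpr hz (hcurv z hz) b c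
    have h2 : (dz (dzb p) z).re = ρ z := by
      rw [hp, dz_dzb_wexp a κ hA0.le (mem_pb.1 hz).2, ofReal_re]
    simp only [h2] at h1
    exact h1
  -- the right hand side
  set f : ℂ → E := fun z => dzb (chi A) z • V z with hf
  have hann : ann A ⊆ pb R := by
    intro z hz
    rw [mem_pb]
    constructor
    · by_contra hcon
      push Not at hcon
      have h1 : R ^ 2 ≤ ‖z‖ ^ 2 := by gcongr
      have h2 : A * R ^ 2 ≤ A * ‖z‖ ^ 2 := by gcongr
      linarith [hz.2]
    · rintro rfl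
      have := hz.1
      norm_num at this
  have hannc : IsCompact (ann A) := by
    refine (isCompact_closedBall (0 : ℂ) 1).of_isClosed_subset (isClosed_ann A) fun z hz => ?_
    rw [mem_closedBall_zero_iff]
    exact ((mem_pb.1 (hann hz)).1.le).trans hR1
  have hf0 : ∀ z, z ∉ ann A → f z = 0 := fun z hz => by simp only [hf, dzb_chi_eq_zero hz, zero_smul]
  have hts : tsupport f ⊆ ann A :=
    closure_minimal (fun z hz => by_contra fun h => hz (hf0 z h)) (isClosed_ann A)
  have hfcs : HasCompactSupport f := hannc.of_isClosed_subset (isClosed_tsupport f) hts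
  have hchic : Continuous (dzb (chi A)) := by
    have h1 : ContDiff ℝ 1 (chi A) := (chi_contDiff A).of_le (by exact_mod_cast le_top)
    rw [← contDiffOn_univ] at h1
    exact continuousOn_univ.1 (contDiffOn_dzb (n := 1) (m := 0) isOpen_univ h1
      (by norm_num)).continuousOn
  have hVc : ContinuousOn V (pb R) := hV.continuousOn
  have hfcont : Continuous f :=
    continuous_of_tsupport' hQ (hchic.continuousOn.smul hVc) (hts.trans hann)
  obtain ⟨u, hum, hui, huI, huw⟩ := hoermander hQ hkc hkpos hhc hkh hhk hρc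
    (fun z _ => (hρ0 z).le) hkcurv hfcont hfcs (fun z hz => ⟨hann (hts hz), hρ0 z⟩)
  -- the weakly holomorphic function
  set X : ℂ → E := fun z => chi A z • V z - u z with hX
  have hχc : Continuous (chi A) := (chi_contDiff A).continuous
  have hXloc : LocallyIntegrableOn X (pb R) volume := by
    refine LocallyIntegrableOn.sub ?_ (locInt_of_weight hQ hkc.continuousOn hkpos hkh hum hui)
    exact (hχc.continuousOn.smul hVc).locallyIntegrableOn hQm
  have hVr : ContDiffOn ℝ 1 V (pb R) :=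
    ((hV.contDiffOn hQ (n := 1)).restrict_scalars ℝ)
  have hXw : ∀ β ∈ testSub E (pb R), ∫ z in pb R, ⟪X z, dz β z⟫_ℂ = 0 := by
    intro β hβ
    have hβ1 : ContDiff ℝ 1 β := hβ.1.of_le (by exact_mod_cast le_top)
    have hβd : ∀ z, DifferentiableAt ℝ β z := fun z => (hβ1.differentiable one_ne_zero) z
    have hdzβ : Continuous (dz β) := by
      have h1 := hβ1
      rw [← contDiffOn_univ] at h1
      exact continuousOn_univ.1 (contDiffOn_dz (n := 1) (m := 0) isOpen_univ h1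
        (by norm_num)).continuousOn
    set S : ℂ → ℂ := fun z => ⟪chi A z • V z, β z⟫_ℂ with hS
    have hSt : tsupport S ⊆ tsupport β := tsupport_subset_of_zero fun z hz => by simp [hS, hz]
    have hScs : HasCompactSupport S := hβ.2.1.mono' ((subset_tsupport S).trans hSt)
    have hχV : ContDiffOn ℝ 1 (fun z => chi A z • V z) (pb R) :=
      ((chi_contDiff A).of_le (by exact_mod_cast le_top)).contDiffOn.smul hVr
    have hSc : ContDiff ℝ 1 S :=
      contDiff_of_tsupport (n := 1) hQ (hχV.inner ℂ hβ1.contDiffOn) (hSt.trans hβ.2.2)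
    have hT1t : tsupport (fun z => ⟪chi A z • V z, dz β z⟫_ℂ) ⊆ tsupport β :=
      tsupport_subset_of_eventually fun z hz => by simp [dz_eq_zero_of_notMem hz]
    have hT1 : Integrable (fun z => ⟪chi A z • V z, dz β z⟫_ℂ) :=
      (continuous_of_tsupport' hQ ((hχc.continuousOn.smul hVc).inner hdzβ.continuousOn)
        (hT1t.trans hβ.2.2)).integrable_of_hasCompactSupport
        (hβ.2.1.mono' ((subset_tsupport _).trans hT1t))
    have hT2 : Integrable (fun z => ⟪f z, β z⟫_ℂ) := by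
      refine (hfcont.inner hβ1.continuous).integrable_of_hasCompactSupport ?_
      refine hβ.2.1.mono' ((subset_tsupport _).trans (tsupport_subset_of_zero fun z hz => ?_))
      simp [hz]
    have hpt : ∀ z, dz S z = ⟪chi A z • V z, dz β z⟫_ℂ + ⟪f z, β z⟫_ℂ := by
      intro z
      by_cases hz : z ∈ pb R
      · have h1 : DifferentiableAt ℝ (fun z => chi A z • V z) z :=
          (hχV.differentiableOn one_ne_zero z hz).differentiableAt (hQ.mem_nhds hz)
        have h2 : DifferentiableAt ℂ V z := hV.differentiableAt (hQ.mem_nhds hz)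
        have h3 : DifferentiableAt ℝ (chi A) z := ((chi_contDiff A).differentiable (by simp)) z
        rw [hS, dz_inner h1 (hβd z), dzb_smul h3 (h2.restrictScalars ℝ), dzb_of_holo h2,
          smul_zero, add_zero]
      · have hz' : z ∉ tsupport β := fun h => hz (hβ.2.2 h)
        rw [dz_eq_zero_of_notMem fun h => hz' (hSt h), dz_eq_zero_of_notMem hz',
          image_eq_zero_of_notMem_tsupport hz']
        simp
    have h0 := integral_dz_eq_zero hSc hScs
    simp only [hpt] at h0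
    rw [integral_add hT1 hT2] at h0
    have h1 : ∫ z in pb R, ⟪chi A z • V z, dz β z⟫_ℂ = ∫ z, ⟪chi A z • V z, dz β z⟫_ℂ := by
      apply setIntegral_eq_integral_of_forall_compl_eq_zero
      intro z hz
      rw [dz_eq_zero_of_notMem fun h => hz (hβ.2.2 h), inner_zero_right]
    have hT3 : Integrable (fun z => ⟪u z, dz β z⟫_ℂ) (volume.restrict (pb R)) := by
      have huloc := locInt_of_weight hQ hkc.continuousOn hkpos hkh hum hui
      have h2 : IntegrableOn (fun z => ⟪u z, dz β z⟫_ℂ) (tsupport β) := by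
        have h3 : IntegrableOn u (tsupport β) :=
          huloc.integrableOn_compact_subset hβ.2.2 hβ.2.1
        obtain ⟨C, hC⟩ := hβ.2.1.isCompact.exists_bound_of_continuousOn hdzβ.continuousOn
        refine Integrable.mono' (h3.norm.mul_const C) ?_ ?_
        · exact h3.aestronglyMeasurable.inner hdzβ.aestronglyMeasurable
        · filter_upwards [ae_restrict_mem (isClosed_tsupport β).measurableSet] with z hz
          exact (norm_inner_le_norm _ _).trans (by gcongr; exact hC z hz)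
      have h4 : IntegrableOn (fun z => ⟪u z, dz β z⟫_ℂ) (pb R) := by
        refine h2.of_forall_sdiff_eq_zero hQm fun z hz => ?_
        rw [dz_eq_zero_of_notMem hz.2, inner_zero_right]
      exact h4
    have h5 := huw β hβ
    calc ∫ z in pb R, ⟪X z, dz β z⟫_ℂ
        = ∫ z in pb R, (⟪chi A z • V z, dz β z⟫_ℂ - ⟪u z, dz β z⟫_ℂ) := by
          simp only [hX, inner_sub_left]
      _ = (∫ z in pb R, ⟪chi A z • V z, dz β z⟫_ℂ) - ∫ z in pb R, ⟪u z, dz β z⟫_ℂ :=
          integral_sub hT1.integrableOn hT3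
      _ = 0 := by
          rw [h1, eq_neg_of_add_eq_zero_left h0, h5]; ring
  obtain ⟨W, hW, hXW⟩ := weyl_vec hQ hXloc hXw
  -- comparison of the weights
  have hre : ∀ z (v : E), (⟪v, h z v⟫_ℂ).re = Real.exp (-wre a κ A z) * (⟪v, g z v⟫_ℂ).re := by
    intro z v
    simp only [hh, hp, cexp_neg_wexp, smul_apply, inner_smul_right, Complex.re_ofReal_mul]
  have hgpos : ∀ z ∈ pb R, ∀ v, 0 ≤ (⟪v, g z v⟫_ℂ).re := fun z hz v =>
    inv_re_nonneg (hpos z hz) (hGg z hz) v
  have hz1 : ∀ z ∈ pb R, ‖z‖ ≤ 1 := fun z hz => ((mem_pb.1 hz).1.le).trans hR1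
  have hw1 : ∀ z ∈ pb R, ∀ v : E, ‖z‖ ^ (-(2 + ε)) * (⟪v, g z v⟫_ℂ).re ≤ 5 * (⟪v, h z v⟫_ℂ).re := by
    intro z hz v
    rw [hre, ← mul_assoc]
    exact mul_le_mul_of_nonneg_right (weight_le hj (hz1 z hz) (mem_pb.1 hz).2) (hgpos z hz v)
  have hw2 : ∀ z ∈ pb R, ∀ v : E, (⟪v, g z v⟫_ℂ).re ≤ 5 * (⟪v, h z v⟫_ℂ).re := by
    intro z hz v
    refine le_trans ?_ (hw1 z hz v)
    exact le_mul_of_one_le_left (hgpos z hz v) (one_le_weight hε.le (hz1 z hz) (mem_pb.1 hz).2)
  have hωc : ContinuousOn (fun z : ℂ => ‖z‖ ^ (-(2 + ε))) (pb R) := by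
    intro z hz
    exact (continuous_norm.continuousAt.rpow_const
      (Or.inl (norm_ne_zero_iff.2 (mem_pb.1 hz).2))).continuousWithinAt
  have hugm : AEStronglyMeasurable (fun z => (⟪u z, g z (u z)⟫_ℂ).re) (volume.restrict (pb R)) := by
    have h1 : AEStronglyMeasurable g (volume.restrict (pb R)) := hg.aestronglyMeasurable hQm
    have h2 : AEStronglyMeasurable (fun z => g z (u z)) (volume.restrict (pb R)) :=
      (isBoundedBilinearMap_apply (𝕜 := ℂ) (E := E) (F := E)).continuous.comp_aestronglyMeasurable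
        (h1.prodMk hum)
    exact Complex.continuous_re.comp_aestronglyMeasurable (hum.inner h2)
  have hub : IntegrableOn (fun z => ‖z‖ ^ (-(2 + ε)) * (⟪u z, g z (u z)⟫_ℂ).re) (pb R) := by
    refine Integrable.mono' (hui.const_mul 5)
      ((hωc.aestronglyMeasurable hQm).mul hugm) ?_
    filter_upwards [ae_restrict_mem hQm] with z hz
    rw [Real.norm_eq_abs, abs_of_nonneg (mul_nonneg (by positivity) (hgpos z hz _))]
    exact hw1 z hz (u z)
  have hWc : ContinuousOn W (pb R) := hW.continuousOn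
  have hWm : AEStronglyMeasurable (fun z => (⟪W z, g z (W z)⟫_ℂ).re) (volume.restrict (pb R)) :=
    (Complex.continuous_re.comp_continuousOn
      (hWc.inner (hg.clm_apply hWc))).aestronglyMeasurable hQm
  set N : Set ℂ := {z ∈ pb R | A * ‖z‖ ^ 2 ≤ 1} with hN
  have hAc : Continuous fun z : ℂ => A * ‖z‖ ^ 2 := by fun_prop
  have hNm : MeasurableSet N := hQm.inter (isClosed_le hAc continuous_const).measurableSet
  have hWle : ∀ᵐ z ∂(volume.restrict (pb R)), (⟪W z, g z (W z)⟫_ℂ).re ≤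
      2 * N.indicator (fun z => (⟪V z, g z (V z)⟫_ℂ).re) z + 10 * (⟪u z, h z (u z)⟫_ℂ).re := by
    filter_upwards [hXW, ae_restrict_mem hQm] with z hz hzQ
    rw [← hz]
    have h1 := inv_re_add_le (hpos z hzQ) (hGg z hzQ) (chi A z • V z) (-(u z))
    rw [← sub_eq_add_neg] at h1
    have h2 : (⟪-(u z), g z (-(u z))⟫_ℂ).re = (⟪u z, g z (u z)⟫_ℂ).re := by
      rw [map_neg, inner_neg_neg]
    have h3 : (⟪chi A z • V z, g z (chi A z • V z)⟫_ℂ).re =
        eta (A * ‖z‖ ^ 2) ^ 2 * (⟪V z, g z (V z)⟫_ℂ).re := by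
      rw [map_smul, inner_smul_left, inner_smul_right, chi, conj_ofReal, ← mul_assoc,
        ← ofReal_mul, Complex.re_ofReal_mul]
      ring
    have h4 : eta (A * ‖z‖ ^ 2) ^ 2 * (⟪V z, g z (V z)⟫_ℂ).re ≤
        N.indicator (fun z => (⟪V z, g z (V z)⟫_ℂ).re) z := by
      by_cases hzN : z ∈ N
      · rw [indicator_of_mem hzN]
        exact mul_le_of_le_one_left (hgpos z hzQ _)
          (pow_le_one₀ (eta_nonneg _) (eta_le_one _))
      · rw [indicator_of_notMem hzN]
        have : 1 < A * ‖z‖ ^ 2 := by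
          by_contra hc
          push Not at hc
          exact hzN ⟨hzQ, hc⟩
        rw [eta_zero this.le]
        simp
    have h5 := hw2 z hzQ (u z)
    rw [h2, h3] at h1
    linarith
  have hVN : IntegrableOn (N.indicator (fun z => (⟪V z, g z (V z)⟫_ℂ).re)) (pb R) :=
    hVi.indicator hNm
  have hdom : IntegrableOn (fun z => 2 * N.indicator (fun z => (⟪V z, g z (V z)⟫_ℂ).re) z +
      10 * (⟪u z, h z (u z)⟫_ℂ).re) (pb R) := (hVN.const_mul 2).add (hui.const_mul 10)
  have hWi : IntegrableOn (fun z => (⟪W z, g z (W z)⟫_ℂ).re) (pb R) := by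
    refine Integrable.mono' hdom hWm ?_
    filter_upwards [hWle, ae_restrict_mem hQm] with z hz hzQ
    rw [Real.norm_eq_abs, abs_of_nonneg (hgpos z hzQ _)]
    exact hz
  -- the right hand side of Hörmander's estimate
  have hrhs : ∫ z, (ρ z)⁻¹ * (⟪f z, h z (f z)⟫_ℂ).re ≤
      4 * K0 ^ 2 * j * ∫ z in ann A, ‖z‖ ^ (-(2 + ε)) * (⟪V z, g z (V z)⟫_ℂ).re := by
    have hci : IntegrableOn (fun z => ‖z‖ ^ (-(2 + ε)) * (⟪V z, g z (V z)⟫_ℂ).re) (ann A) :=
      (((hωc.mul (Complex.continuous_re.comp_continuousOn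
        (hVc.inner (hg.clm_apply hVc)))).mono hann).integrableOn_compact hannc)
    rw [← integral_const_mul, ← integral_indicator (isClosed_ann A).measurableSet]
    apply integral_mono_of_nonneg
    · filter_upwards with z
      by_cases hz : z ∈ ann A
      · have h1 : 0 ≤ (⟪f z, h z (f z)⟫_ℂ).re := by
          rw [hre]; exact mul_nonneg (Real.exp_pos _).le (hgpos z (hann hz) _)
        exact mul_nonneg (inv_nonneg.2 (hρ0 z).le) h1
      · simp [hf0 z hz]
    · exact IntegrableOn.integrable_indicator (hci.const_mul _) (isClosed_ann A).measurableSet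
    · filter_upwards with z
      by_cases hz : z ∈ ann A
      · rw [indicator_of_mem hz]
        have e1 : (⟪f z, h z (f z)⟫_ℂ).re =
            ‖dzb (chi A) z‖ ^ 2 * (Real.exp (-wre a κ A z) * (⟪V z, g z (V z)⟫_ℂ).re) := by
          rw [← hre]
          simp only [hf, map_smul, inner_smul_left, inner_smul_right]
          rw [← mul_assoc, Complex.mul_conj', ← ofReal_pow, Complex.re_ofReal_mul]
        rw [e1]
        have e2 : (ρ z)⁻¹ ≤ 4 * j / A := by
          simp only [hρ, hκ]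
          rw [inv_div, div_le_div_iff₀ (by positivity) hA0]
          have h1 : (1 + A * ‖z‖ ^ 2) ^ 2 ≤ 4 := by
            have h2 := hz.2
            have h3 : 0 ≤ A * ‖z‖ ^ 2 := by positivity
            nlinarith
          calc (1 + A * ‖z‖ ^ 2) ^ 2 * A ≤ 4 * A := by gcongr
            _ = 4 * j * (1 / j * A) := by field_simp
        have e3 := norm_dzb_chi_sq hK hA0 z hz
        have e4 : Real.exp (-wre a κ A z) ≤ ‖z‖ ^ (-(2 + ε)) := weight_ge (mem_pb.1 (hann hz)).2
        have e5 := hgpos z (hann hz) (V z)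
        calc (ρ z)⁻¹ * (‖dzb (chi A) z‖ ^ 2 *
              (Real.exp (-wre a κ A z) * (⟪V z, g z (V z)⟫_ℂ).re))
            ≤ (4 * j / A) * ((K0 ^ 2 * A) *
              (‖z‖ ^ (-(2 + ε)) * (⟪V z, g z (V z)⟫_ℂ).re)) := by gcongr
          _ = 4 * K0 ^ 2 * j * (‖z‖ ^ (-(2 + ε)) * (⟪V z, g z (V z)⟫_ℂ).re) := by
              field_simp
      · rw [indicator_of_notMem hz, hf0 z hz]
        simp
  refine ⟨W, hW, hWi, ?_, ?_⟩
  · calc ∫ z in pb R, (⟪W z, g z (W z)⟫_ℂ).re
        ≤ ∫ z in pb R, (2 * N.indicator (fun z => (⟪V z, g z (V z)⟫_ℂ).re) z +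
          10 * (⟪u z, h z (u z)⟫_ℂ).re) := integral_mono_ae hWi hdom hWle
      _ = 2 * (∫ z in N, (⟪V z, g z (V z)⟫_ℂ).re) + 10 * ∫ z in pb R, (⟪u z, h z (u z)⟫_ℂ).re := by
          rw [integral_add (hVN.const_mul 2) (hui.const_mul 10), integral_const_mul,
            integral_const_mul, setIntegral_indicator hNm]
          congr 3
          rw [inter_eq_right.2 fun z hz => hz.1]
      _ ≤ 2 * (∫ z in N, (⟪V z, g z (V z)⟫_ℂ).re) + 10 * (4 * K0 ^ 2 * j *
          ∫ z in ann A, ‖z‖ ^ (-(2 + ε)) * (⟪V z, g z (V z)⟫_ℂ).re) := by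
          gcongr
          exact huI.trans hrhs
      _ = 2 * (∫ z in N, (⟪V z, g z (V z)⟫_ℂ).re) + 40 * K0 ^ 2 * j *
          ∫ z in ann A, ‖z‖ ^ (-(2 + ε)) * (⟪V z, g z (V z)⟫_ℂ).re := by ring
  · have hsub : {z ∈ pb R | A * ‖z‖ ^ 2 < 1 / 4} ⊆ pb R := fun z hz => hz.1
    refine (hub.mono_set hsub).congr ?_
    have hm : MeasurableSet {z ∈ pb R | A * ‖z‖ ^ 2 < 1 / 4} :=
      hQm.inter (isOpen_lt hAc continuous_const).measurableSet
    have h1 := ae_restrict_of_ae_restrict_of_subset hsub hXW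
    filter_upwards [h1, ae_restrict_mem hm] with z hz hzm
    have h2 : W z - V z = -(u z) := by
      rw [← hz]
      simp only [hX, chi, eta_one hzm.2.le, ofReal_one, one_smul]
      abel
    rw [h2, map_neg, inner_neg_neg]

end Vale.Agent.P253.R2.H66
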