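import Vale.Agent.P253.R2.H66.Hoer1

/-! P253 (helper66): Hörmander's `L²` existence theorem on open sets of `ℂ` for operator valued
weights. -/

open Complex Filter Topology Set Metric MeasureTheory
open scoped ContDiff InnerProductSpace

noncomputable section

namespace Vale.Agent.P253.R2.H66

/-- Riesz representation on the range of a linear map. -/
theorem riesz_range {D H : Type*} [AddCommGroup D] [Module ℂ D] [NormedAddCommGroup H]
    [InnerProductSpace ℂ H] [CompleteSpace H] (T : D →ₗ[ℂ] H) (L : D →ₗ[ℂ] ℂ) {C : ℝ}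
    (hC : 0 ≤ C) (h : ∀ b, ‖L b‖ ≤ C * ‖T b‖) : ∃ w : H, ‖w‖ ≤ C ∧ ∀ b, L b = ⟪w, T b⟫_ℂ := by
  have hker : LinearMap.ker T ≤ LinearMap.ker L := by
    intro b hb
    rw [LinearMap.mem_ker] at hb ⊢
    have := h b
    rw [hb, norm_zero, mul_zero] at this
    exact norm_le_zero_iff.1 this
  let L' : LinearMap.range T →ₗ[ℂ] ℂ :=
    ((LinearMap.ker T).liftQ L hker) ∘ₗ (T.quotKerEquivRange.symm : LinearMap.range T →ₗ[ℂ] _)
  have hL' : ∀ b, L' ⟨T b, LinearMap.mem_range_self T b⟩ = L b := by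
    intro b
    simp only [L', LinearMap.comp_apply, LinearEquiv.coe_coe]
    have : T.quotKerEquivRange.symm ⟨T b, LinearMap.mem_range_self T b⟩ =
        (LinearMap.ker T).mkQ b := by
      rw [LinearEquiv.symm_apply_eq]
      rfl
    rw [this]
    rfl
  have hb : ∀ x, ‖L' x‖ ≤ C * ‖x‖ := by
    rintro ⟨_, b, rfl⟩
    rw [hL' b]
    exact h b
  obtain ⟨g, hg, hgn⟩ := exists_extension_norm_eq (LinearMap.range T) (L'.mkContinuous C hb)
  refine ⟨(InnerProductSpace.toDual ℂ H).symm g, ?_, fun b => ?_⟩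
  · rw [LinearIsometryEquiv.norm_map, hgn]
    exact LinearMap.mkContinuous_norm_le _ hC _
  · rw [InnerProductSpace.toDual_symm_apply]
    have := hg ⟨T b, LinearMap.mem_range_self T b⟩
    rw [this]
    exact (hL' b).symm

section sqrt

variable {E : Type*} [NormedAddCommGroup E] [InnerProductSpace ℂ E] [CompleteSpace E]

theorem sqrt_facts {k : E →L[ℂ] E} (hk : 0 ≤ k) :
    (∀ v w, ⟪CFC.sqrt k v, w⟫_ℂ = ⟪v, CFC.sqrt k w⟫_ℂ) ∧
    (∀ v, CFC.sqrt k (CFC.sqrt k v) = k v) := by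
  constructor
  · intro v w
    have h1 : 0 ≤ CFC.sqrt k := CFC.sqrt_nonneg k
    have h2 : (CFC.sqrt k).IsPositive := by
      rw [← ContinuousLinearMap.nonneg_iff_isPositive]; exact h1
    exact h2.isSymmetric v w
  · intro v
    have h1 : CFC.sqrt k * CFC.sqrt k = k := CFC.sqrt_mul_sqrt_self k hk
    have := congrArg (fun A : E →L[ℂ] E => A v) h1
    simpa using this

theorem continuousOn_sqrt {k : ℂ → E →L[ℂ] E} {Q : Set ℂ} (hk : ContinuousOn k Q)
    (hpos : ∀ z ∈ Q, 0 ≤ k z) : ContinuousOn (fun z => CFC.sqrt (k z)) Q := by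
  have h := ContinuousOn.cfc_nnreal_of_mem_nhdsSet (s := univ) NNReal.sqrt
    (a := k) (t := Q) (by simp) hk hpos (NNReal.continuous_sqrt.continuousOn)
  refine h.congr fun z hz => ?_
  exact CFC.sqrt_eq_cfc ..

end sqrt

section main

variable {E : Type*} [NormedAddCommGroup E] [InnerProductSpace ℂ E] [CompleteSpace E]

/-- the test functions -/
def testSub (E : Type*) [NormedAddCommGroup E] [InnerProductSpace ℂ E] (Q : Set ℂ) :
    Submodule ℂ (ℂ → E) where
  carrier := {β | ContDiff ℝ ∞ β ∧ HasCompactSupport β ∧ tsupport β ⊆ Q}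
  add_mem' := by
    rintro a b ⟨ha, ha', ha''⟩ ⟨hb, hb', hb''⟩
    refine ⟨ha.add hb, ha'.add hb', ?_⟩
    exact (tsupport_add a b).trans (union_subset ha'' hb'')
  zero_mem' := by
    refine ⟨contDiff_const, HasCompactSupport.zero, ?_⟩
    simp [tsupport, Function.support_zero]
  smul_mem' := by
    rintro c a ⟨ha, ha', ha''⟩
    refine ⟨ha.const_smul c, ha'.smul_left (f := fun _ => c), ?_⟩
    refine (tsupport_subset_of_zero fun z hz => ?_).trans ha''
    simp [hz]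

omit [CompleteSpace E] in
theorem mem_testSub {Q : Set ℂ} {β : ℂ → E} :
    β ∈ testSub E Q ↔ ContDiff ℝ ∞ β ∧ HasCompactSupport β ∧ tsupport β ⊆ Q := Iff.rfl

/-- pointwise Cauchy–Schwarz -/
theorem cs_weight {k h : E →L[ℂ] E} (hk : 0 ≤ k) (hkh : ∀ v, k (h v) = v) {r : ℝ} (hr : 0 < r)
    (t : ℝ) (f b : E) : 2 * t * ‖⟪f, b⟫_ℂ‖ ≤
      t ^ 2 * (r⁻¹ * (⟪f, h f⟫_ℂ).re) + r * (⟪b, k b⟫_ℂ).re := by
  obtain ⟨hs, hss⟩ := sqrt_facts hk
  set B := CFC.sqrt k with hB
  have h1 : ⟪f, b⟫_ℂ = ⟪B (h f), B b⟫_ℂ := by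
    rw [← hs, hss, hkh]
  have h2 : (⟪f, h f⟫_ℂ).re = ‖B (h f)‖ ^ 2 := by
    rw [← inner_self_eq_norm_sq (𝕜 := ℂ), ← hs, hss, hkh]; rfl
  have h3 : (⟪b, k b⟫_ℂ).re = ‖B b‖ ^ 2 := by
    rw [← inner_self_eq_norm_sq (𝕜 := ℂ), hs, hss]; rfl
  rw [h1, h2, h3]
  have h4 : ‖⟪B (h f), B b⟫_ℂ‖ ≤ ‖B (h f)‖ * ‖B b‖ := norm_inner_le_norm _ _
  set x := ‖B (h f)‖
  set y := ‖B b‖
  have hx : 0 ≤ x := norm_nonneg _
  have hy : 0 ≤ y := norm_nonneg _
  rcases le_or_gt t 0 with ht | ht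
  · have h5 : 2 * t * ‖⟪B (h f), B b⟫_ℂ‖ ≤ 0 :=
      mul_nonpos_of_nonpos_of_nonneg (by linarith) (norm_nonneg _)
    have : 0 ≤ t ^ 2 * (r⁻¹ * x ^ 2) + r * y ^ 2 := by positivity
    linarith
  · have h5 : 2 * t * ‖⟪B (h f), B b⟫_ℂ‖ ≤ 2 * t * (x * y) := by gcongr
    have h6 : t ^ 2 * (r⁻¹ * x ^ 2) + r * y ^ 2 - 2 * t * (x * y) = r⁻¹ * (t * x - r * y) ^ 2 := by
      field_simp
      ring
    have h7 : 0 ≤ r⁻¹ * (t * x - r * y) ^ 2 := by positivity
    linarith

theorem hoermander {Q : Set ℂ} (hQ : IsOpen Q) {k h : ℂ → E →L[ℂ] E}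
    (hk : ContDiffOn ℝ 2 k Q) (hpos : ∀ z ∈ Q, 0 ≤ k z) (hh : ContinuousOn h Q)
    (hkh : ∀ z ∈ Q, ∀ v, k z (h z v) = v) (hhk : ∀ z ∈ Q, ∀ v, h z (k z v) = v)
    {ρ : ℂ → ℝ} (hρ : ContinuousOn ρ Q) (hρ0 : ∀ z ∈ Q, 0 ≤ ρ z)
    (hcurv : ∀ z ∈ Q, CurvGE k ρ z)
    {f : ℂ → E} (hf : Continuous f) (hfc : HasCompactSupport f)
    (hfs : tsupport f ⊆ {z ∈ Q | 0 < ρ z}) :
    ∃ u : ℂ → E, AEStronglyMeasurable u (volume.restrict Q) ∧
      Integrable (fun z => (⟪u z, h z (u z)⟫_ℂ).re) (volume.restrict Q) ∧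
      ∫ z in Q, (⟪u z, h z (u z)⟫_ℂ).re ≤ ∫ z, (ρ z)⁻¹ * (⟪f z, h z (f z)⟫_ℂ).re ∧
      ∀ β ∈ testSub E Q, ∫ z, ⟪f z, β z⟫_ℂ = - ∫ z in Q, ⟪u z, dz β z⟫_ℂ := by
  have hsym : ∀ z ∈ Q, ∀ v w, ⟪v, k z w⟫_ℂ = ⟪k z v, w⟫_ℂ := by
    intro z hz v w
    have h2 : (k z).IsPositive := by
      rw [← ContinuousLinearMap.nonneg_iff_isPositive]; exact hpos z hz
    exact (h2.isSymmetric v w).symm
  set B : ℂ → E →L[ℂ] E := fun z => CFC.sqrt (k z) with hBdef
  have hBc : ContinuousOn B Q := continuousOn_sqrt hk.continuousOn hpos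
  have hBs : ∀ z ∈ Q, ∀ v w, ⟪B z v, w⟫_ℂ = ⟪v, B z w⟫_ℂ := fun z hz => (sqrt_facts (hpos z hz)).1
  have hBB : ∀ z ∈ Q, ∀ v, B z (B z v) = k z v := fun z hz => (sqrt_facts (hpos z hz)).2
  -- the operator `T`
  have hdzc : ∀ β ∈ testSub E Q, Continuous (dz β) := by
    rintro β ⟨h1, -, -⟩
    have h1' : ContDiff ℝ 1 β := h1.of_le (by exact_mod_cast le_top)
    rw [← contDiffOn_univ] at h1'
    exact continuousOn_univ.1 (contDiffOn_dz (n := 1) (m := 0) isOpen_univ h1'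
      (by norm_num)).continuousOn
  have hTt : ∀ β ∈ testSub E Q, tsupport (fun z => B z (dz β z)) ⊆ tsupport β := fun β _ =>
    tsupport_subset_of_eventually fun z hz => by simp [dz_eq_zero_of_notMem hz]
  have hTc : ∀ β ∈ testSub E Q, Continuous (fun z => B z (dz β z)) := by
    intro β hβ
    refine continuous_of_tsupport' hQ ?_ ((hTt β hβ).trans hβ.2.2)
    exact hBc.clm_apply (hdzc β hβ).continuousOn
  have hTm : ∀ β ∈ testSub E Q, MemLp (fun z => B z (dz β z)) 2 (volume.restrict Q) := by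
    intro β hβ
    have := (hTc β hβ).memLp_of_hasCompactSupport (μ := volume) (p := 2)
      (hβ.2.1.mono' ((subset_tsupport _).trans (hTt β hβ)))
    exact this.restrict _
  have hβd : ∀ β ∈ testSub E Q, ∀ z, DifferentiableAt ℝ β z := fun β hβ z =>
    (hβ.1.differentiable (by simp)) z
  let T : testSub E Q →ₗ[ℂ] Lp E 2 (volume.restrict Q) :=
    { toFun := fun β => (hTm β.1 β.2).toLp _
      map_add' := by
        intro a b
        rw [← MemLp.toLp_add (hTm a.1 a.2) (hTm b.1 b.2)]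
        apply MemLp.toLp_congr
        filter_upwards with z
        have : dz (a.1 + b.1) z = dz a.1 z + dz b.1 z := dz_add (hβd _ a.2 z) (hβd _ b.2 z)
        simp [this]
      map_smul' := by
        intro c a
        rw [RingHom.id_apply, ← MemLp.toLp_const_smul]
        apply MemLp.toLp_congr
        filter_upwards with z
        have : dz (c • a.1) z = c • dz a.1 z := by
          have h1 : fderiv ℝ (c • a.1) z = c • fderiv ℝ a.1 z := fderiv_const_smul (hβd _ a.2 z) c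
          simp only [dz, h1, smul_apply]
          module
        simp [this] }
  have hfβ : ∀ β ∈ testSub E Q, Integrable (fun z => ⟪f z, β z⟫_ℂ) := by
    intro β hβ
    refine (hf.inner hβ.1.continuous).integrable_of_hasCompactSupport ?_
    refine hβ.2.1.mono' ((subset_tsupport _).trans (tsupport_subset_of_zero fun z hz => ?_))
    simp [hz]
  let L : testSub E Q →ₗ[ℂ] ℂ :=
    { toFun := fun β => ∫ z, ⟪f z, β.1 z⟫_ℂ
      map_add' := by
        intro a b
        rw [← integral_add (hfβ _ a.2) (hfβ _ b.2)]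
        congr 1; funext z
        simp [inner_add_right]
      map_smul' := by
        intro c a
        rw [RingHom.id_apply, smul_eq_mul, ← integral_const_mul]
        congr 1; funext z
        simp [inner_smul_right] }
  -- the bound
  set A : ℝ := ∫ z, (ρ z)⁻¹ * (⟪f z, h z (f z)⟫_ℂ).re with hA
  have hfQ : ∀ z, z ∉ Q → f z = 0 := fun z hz =>
    image_eq_zero_of_notMem_tsupport fun h => hz (hfs h).1
  have hAi : Integrable (fun z => (ρ z)⁻¹ * (⟪f z, h z (f z)⟫_ℂ).re) := by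
    have hts : tsupport (fun z => (ρ z)⁻¹ * (⟪f z, h z (f z)⟫_ℂ).re) ⊆ tsupport f :=
      tsupport_subset_of_zero fun z hz => by simp [hz]
    have hQ' : IsOpen {z ∈ Q | 0 < ρ z} := by
      have := hρ.isOpen_inter_preimage hQ isOpen_Ioi (t := Ioi 0)
      exact this
    refine Continuous.integrable_of_hasCompactSupport (continuous_of_tsupport' hQ' ?_
      (hts.trans hfs)) (hfc.mono' ((subset_tsupport _).trans hts))
    refine ((hρ.mono fun z hz => hz.1).inv₀ fun z hz => hz.2.ne').mul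
      (Complex.continuous_re.comp_continuousOn (hf.continuousOn.inner
        ((hh.mono fun z hz => hz.1).clm_apply hf.continuousOn)))
  have hTn : ∀ β : testSub E Q, ‖T β‖ ^ 2 = ∫ z, (⟪dz β.1 z, k z (dz β.1 z)⟫_ℂ).re := by
    intro β
    rw [← inner_self_eq_norm_sq (𝕜 := ℂ), L2.inner_def]
    have e1 : ∫ a in Q, ⟪(T β) a, (T β) a⟫_ℂ = ∫ z in Q, ⟪dz β.1 z, k z (dz β.1 z)⟫_ℂ := by
      apply integral_congr_ae
      filter_upwards [(hTm β.1 β.2).coeFn_toLp, ae_restrict_mem hQ.measurableSet] with z hz hzQ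
      have : (T β) z = B z (dz β.1 z) := hz
      rw [this, hBs z hzQ, hBB z hzQ]
    rw [e1]
    have e2 : ∫ z in Q, ⟪dz β.1 z, k z (dz β.1 z)⟫_ℂ = ∫ z, ⟪dz β.1 z, k z (dz β.1 z)⟫_ℂ := by
      apply setIntegral_eq_integral_of_forall_compl_eq_zero
      intro z hz
      rw [dz_eq_zero_of_notMem fun h => hz (β.2.2.2 h)]
      simp
    rw [e2]
    have hts : tsupport (fun z => ⟪dz β.1 z, k z (dz β.1 z)⟫_ℂ) ⊆ tsupport β.1 :=
      tsupport_subset_of_eventually fun z hz => by simp [dz_eq_zero_of_notMem hz]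
    have hint : Integrable (fun z => ⟪dz β.1 z, k z (dz β.1 z)⟫_ℂ) := by
      refine Continuous.integrable_of_hasCompactSupport (continuous_of_tsupport' hQ ?_
        (hts.trans β.2.2.2)) (β.2.2.1.mono' ((subset_tsupport _).trans hts))
      exact (hdzc _ β.2).continuousOn.inner (hk.continuousOn.clm_apply (hdzc _ β.2).continuousOn)
    exact (integral_re hint).symm
  have hA0 : 0 ≤ A := by
    apply integral_nonneg
    intro z
    by_cases hz : z ∈ Q
    · have h1 := cs_weight (hpos z hz) (hkh z hz) one_pos 1 (f z) 0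
      simp only [inner_zero_right, norm_zero, mul_zero, map_zero, Complex.zero_re, add_zero,
        one_pow, inv_one, one_mul] at h1
      exact mul_nonneg (inv_nonneg.2 (hρ0 z hz)) h1
    · simp [hfQ z hz]
  have hbound : ∀ β : testSub E Q, ‖L β‖ ≤ √A * ‖T β‖ := by
    intro β
    obtain ⟨i1, i2, h1⟩ := basic_ineq hQ hk hsym hρ hcurv (by exact_mod_cast contDiff_infty.1 β.2.1 2)
      β.2.2.1 β.2.2.2
    rw [← hTn] at h1
    have hL : ‖L β‖ ≤ ∫ z, ‖⟪f z, β.1 z⟫_ℂ‖ := norm_integral_le_integral_norm _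
    have h2 : ∀ t : ℝ, 0 ≤ A * (t * t) + (-(2 * ∫ z, ‖⟪f z, β.1 z⟫_ℂ‖)) * t + ‖T β‖ ^ 2 := by
      intro t
      have h3 : ∫ z, 2 * t * ‖⟪f z, β.1 z⟫_ℂ‖ ≤ ∫ z, (t ^ 2 * ((ρ z)⁻¹ * (⟪f z, h z (f z)⟫_ℂ).re)
          + ρ z * (⟪β.1 z, k z (β.1 z)⟫_ℂ).re) := by
        refine integral_mono ((hfβ _ β.2).norm.const_mul _) ((hAi.const_mul _).add i1) ?_
        intro z
        by_cases hz : z ∈ Q
        · rcases (hρ0 z hz).lt_or_eq with h4 | h4
          · exact cs_weight (hpos z hz) (hkh z hz) h4 t (f z) (β.1 z)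
          · have h5 : f z = 0 := image_eq_zero_of_notMem_tsupport fun h => by
              have := (hfs h).2
              rw [← h4] at this
              exact lt_irrefl _ this
            simp [← h4, h5]
        · simp [hfQ z hz, image_eq_zero_of_notMem_tsupport fun h => hz (β.2.2.2 h)]
      rw [integral_const_mul, integral_add (hAi.const_mul _) i1, integral_const_mul] at h3
      nlinarith [h3, h1]
    have h3 := discrim_le_zero h2
    rw [discrim] at h3
    have h4 : (∫ z, ‖⟪f z, β.1 z⟫_ℂ‖) ^ 2 ≤ A * ‖T β‖ ^ 2 := by nlinarith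
    have h5 : ∫ z, ‖⟪f z, β.1 z⟫_ℂ‖ ≤ √A * ‖T β‖ := by
      apply le_of_sq_le_sq _ (by positivity)
      rw [mul_pow, Real.sq_sqrt hA0]
      exact h4
    exact hL.trans h5
  obtain ⟨w, hw, hwL⟩ := riesz_range T L (Real.sqrt_nonneg A) hbound
  refine ⟨fun z => -(B z (w z)), ?_, ?_, ?_, ?_⟩
  · have h1 : AEStronglyMeasurable B (volume.restrict Q) :=
      hBc.aestronglyMeasurable hQ.measurableSet
    exact ((isBoundedBilinearMap_apply (𝕜 := ℂ) (E := E) (F := E)).continuous.comp_aestronglyMeasurable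
      (h1.prodMk (Lp.aestronglyMeasurable w))).neg
  all_goals
    have hu : ∀ᵐ z ∂(volume.restrict Q), (⟪-(B z (w z)), h z (-(B z (w z)))⟫_ℂ).re =
        ‖w z‖ ^ 2 := by
      filter_upwards [ae_restrict_mem hQ.measurableSet] with z hz
      rw [map_neg, inner_neg_neg, hBs z hz]
      have h1 : B z (h z (B z (w z))) = w z := by
        have hinj : Function.Injective (B z) := by
          intro a b hab
          have := congrArg (fun v => h z (B z v)) hab
          simpa [hBB z hz, hhk z hz] using this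
        apply hinj
        rw [hBB z hz, hkh z hz]
      rw [h1]
      rw [← inner_self_eq_norm_sq (𝕜 := ℂ)]; rfl
  · have h1 : Integrable (fun z => ‖w z‖ ^ 2) (volume.restrict Q) :=
      (Lp.memLp w).integrable_norm_pow (by norm_num)
    exact h1.congr (by filter_upwards [hu] with z hz using hz.symm)
  · rw [integral_congr_ae hu]
    have h1 : ∫ z in Q, ‖w z‖ ^ 2 = ‖w‖ ^ 2 := by
      rw [← inner_self_eq_norm_sq (𝕜 := ℂ), L2.inner_def]
      have h2 : ∫ a in Q, ⟪w a, w a⟫_ℂ = ∫ a in Q, ((‖w a‖ ^ 2 : ℝ) : ℂ) := by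
        congr 1; funext a
        rw [inner_self_eq_norm_sq_to_K]; norm_cast
      rw [h2, integral_complex_ofReal]
      rfl
    rw [h1]
    calc ‖w‖ ^ 2 ≤ √A ^ 2 := by gcongr
      _ = A := Real.sq_sqrt hA0
  · intro β hβ
    have h1 := hwL ⟨β, hβ⟩
    have h2 : L ⟨β, hβ⟩ = ∫ z, ⟪f z, β z⟫_ℂ := rfl
    rw [← h2, h1, L2.inner_def, ← integral_neg]
    apply integral_congr_ae
    filter_upwards [(hTm β hβ).coeFn_toLp, ae_restrict_mem hQ.measurableSet] with z hz hzQ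
    have : (T ⟨β, hβ⟩) z = B z (dz β z) := hz
    rw [this, inner_neg_left, neg_neg, hBs z hzQ]

end main

end Vale.Agent.P253.R2.H66
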