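import Vale.Agent.P253.R2.H66.Hoer2

/-! P253 (helper66): change of weight `k ↦ e^ψ k` and the special weights. -/

open Complex Filter Topology Set Metric MeasureTheory
open scoped ContDiff InnerProductSpace ComplexConjugate

noncomputable section

namespace Vale.Agent.P253.R2.H66

section rules

variable {F : Type*} [NormedAddCommGroup F] [NormedSpace ℂ F]

theorem dz_mul {a b : ℂ → ℂ} {z : ℂ} (ha : DifferentiableAt ℝ a z) (hb : DifferentiableAt ℝ b z) :
    dz (fun w => a w * b w) z = dz a z * b z + a z * dz b z :=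
  dz_bilin (ContinuousLinearMap.mul ℂ ℂ) ha hb

theorem dzb_mul {a b : ℂ → ℂ} {z : ℂ} (ha : DifferentiableAt ℝ a z)
    (hb : DifferentiableAt ℝ b z) :
    dzb (fun w => a w * b w) z = dzb a z * b z + a z * dzb b z :=
  dzb_bilin (ContinuousLinearMap.mul ℂ ℂ) ha hb

theorem dz_smul {a : ℂ → ℂ} {f : ℂ → F} {z : ℂ} (ha : DifferentiableAt ℝ a z)
    (hf : DifferentiableAt ℝ f z) :
    dz (fun w => a w • f w) z = dz a z • f z + a z • dz f z :=
  dz_bilin (ContinuousLinearMap.lsmul ℂ ℂ) ha hf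

theorem dzb_smul {a : ℂ → ℂ} {f : ℂ → F} {z : ℂ} (ha : DifferentiableAt ℝ a z)
    (hf : DifferentiableAt ℝ f z) :
    dzb (fun w => a w • f w) z = dzb a z • f z + a z • dzb f z :=
  dzb_bilin (ContinuousLinearMap.lsmul ℂ ℂ) ha hf

theorem dz_const (c : F) (z : ℂ) : dz (fun _ => c) z = 0 := by simp [dz]

theorem dzb_const (c : F) (z : ℂ) : dzb (fun _ => c) z = 0 := by simp [dzb]

theorem dz_conj {f : ℂ → ℂ} {z : ℂ} (hf : DifferentiableAt ℝ f z) :
    dz (fun w => conj (f w)) z = conj (dzb f z) := by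
  have h : HasFDerivAt (fun w => conj (f w))
      ((conjCLE : ℂ →L[ℝ] ℂ).comp (fderiv ℝ f z)) z :=
    (conjCLE : ℂ →L[ℝ] ℂ).hasFDerivAt.comp z hf.hasFDerivAt
  rw [dz, dzb, h.fderiv]
  simp only [ContinuousLinearMap.comp_apply, smul_eq_mul, map_mul, map_add, map_div₀, map_one,
    map_ofNat, conj_I, ContinuousLinearEquiv.coe_coe, conjCLE_apply]
  ring

theorem dzb_conj {f : ℂ → ℂ} {z : ℂ} (hf : DifferentiableAt ℝ f z) :
    dzb (fun w => conj (f w)) z = conj (dz f z) := by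
  have h : HasFDerivAt (fun w => conj (f w))
      ((conjCLE : ℂ →L[ℝ] ℂ).comp (fderiv ℝ f z)) z :=
    (conjCLE : ℂ →L[ℝ] ℂ).hasFDerivAt.comp z hf.hasFDerivAt
  rw [dz, dzb, h.fderiv]
  simp only [ContinuousLinearMap.comp_apply, smul_eq_mul, map_mul, map_sub, map_div₀, map_one,
    map_ofNat, conj_I, ContinuousLinearEquiv.coe_coe, conjCLE_apply]
  ring

/-- composition with a holomorphic function -/
theorem dzb_comp_holo {p : ℂ → ℂ} {φ : ℂ → ℂ} {z : ℂ} (hp : DifferentiableAt ℝ p z)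
    (hφ : DifferentiableAt ℂ φ (p z)) :
    dzb (fun w => φ (p w)) z = deriv φ (p z) * dzb p z := by
  have h : HasFDerivAt (fun w => φ (p w))
      (((fderiv ℂ φ (p z)).restrictScalars ℝ).comp (fderiv ℝ p z)) z :=
    (hφ.hasFDerivAt.restrictScalars ℝ).comp z hp.hasFDerivAt
  have h2 : ∀ v : ℂ, fderiv ℂ φ (p z) v = deriv φ (p z) * v := fun v => by
    rw [fderiv_eq_smul_deriv, smul_eq_mul, mul_comm]
  rw [dzb, dzb, h.fderiv]
  simp only [ContinuousLinearMap.comp_apply, ContinuousLinearMap.coe_restrictScalars', h2,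
    smul_eq_mul]
  ring

theorem dz_comp_holo {p : ℂ → ℂ} {φ : ℂ → ℂ} {z : ℂ} (hp : DifferentiableAt ℝ p z)
    (hφ : DifferentiableAt ℂ φ (p z)) :
    dz (fun w => φ (p w)) z = deriv φ (p z) * dz p z := by
  have h : HasFDerivAt (fun w => φ (p w))
      (((fderiv ℂ φ (p z)).restrictScalars ℝ).comp (fderiv ℝ p z)) z :=
    (hφ.hasFDerivAt.restrictScalars ℝ).comp z hp.hasFDerivAt
  have h2 : ∀ v : ℂ, fderiv ℂ φ (p z) v = deriv φ (p z) * v := fun v => by
    rw [fderiv_eq_smul_deriv, smul_eq_mul, mul_comm]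
  rw [dz, dz, h.fderiv]
  simp only [ContinuousLinearMap.comp_apply, ContinuousLinearMap.coe_restrictScalars', h2,
    smul_eq_mul]
  ring

end rules

section weight

variable {E : Type*} [NormedAddCommGroup E] [InnerProductSpace ℂ E]

/-- Multiplication of the weight by `e^ψ` adds `ψ_{z z̄}` to the curvature. -/
theorem curvGE_exp {G : ℂ → E →L[ℂ] E} {Q : Set ℂ} (hQ : IsOpen Q) (hG : ContDiffOn ℝ 2 G Q)
    (hsym : ∀ z ∈ Q, ∀ v w, ⟪v, G z w⟫_ℂ = ⟪G z v, w⟫_ℂ) {p : ℂ → ℂ} (hp : ContDiffOn ℝ 2 p Q)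
    (hpr : ∀ z ∈ Q, conj (p z) = p z) {z : ℂ} (hz : z ∈ Q) (hcurv : CurvGE G (fun _ => 0) z) :
    CurvGE (fun w => cexp (p w) • G w) (fun w => (dz (dzb p) w).re) z := by
  have hG1 : ContDiffOn ℝ 1 G Q := hG.of_le (by norm_num)
  have hp1 : ContDiffOn ℝ 1 p Q := hp.of_le (by norm_num)
  have hGd : ∀ x ∈ Q, DifferentiableAt ℝ G x := fun x hx =>
    (hG1.differentiableOn one_ne_zero x hx).differentiableAt (hQ.mem_nhds hx)
  have hpd : ∀ x ∈ Q, DifferentiableAt ℝ p x := fun x hx =>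
    (hp1.differentiableOn one_ne_zero x hx).differentiableAt (hQ.mem_nhds hx)
  have hGb : DifferentiableAt ℝ (dzb G) z :=
    ((contDiffOn_dzb (n := 2) (m := 1) hQ hG (by norm_num)).differentiableOn
      one_ne_zero z hz).differentiableAt (hQ.mem_nhds hz)
  have hpb : DifferentiableAt ℝ (dzb p) z :=
    ((contDiffOn_dzb (n := 2) (m := 1) hQ hp (by norm_num)).differentiableOn
      one_ne_zero z hz).differentiableAt (hQ.mem_nhds hz)
  have had : ∀ x ∈ Q, DifferentiableAt ℝ (fun w => cexp (p w)) x := fun x hx => (hpd x hx).cexp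
  have hab : ∀ x ∈ Q, dzb (fun w => cexp (p w)) x = cexp (p x) * dzb p x := by
    intro x hx
    rw [dzb_comp_holo (hpd x hx) Complex.differentiableAt_exp, Complex.deriv_exp]
  have haz : dz (fun w => cexp (p w)) z = cexp (p z) * dz p z := by
    rw [dz_comp_holo (hpd z hz) Complex.differentiableAt_exp, Complex.deriv_exp]
  have e1 : dzb (fun w => cexp (p w) • G w) =ᶠ[𝓝 z]
      fun w => (cexp (p w) * dzb p w) • G w + cexp (p w) • dzb G w := by
    filter_upwards [hQ.mem_nhds hz] with x hx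
    rw [dzb_smul (had x hx) (hGd x hx), hab x hx]
  have d1 : DifferentiableAt ℝ (fun w => cexp (p w) * dzb p w) z := (had z hz).mul hpb
  have d2 : DifferentiableAt ℝ (fun w => (cexp (p w) * dzb p w) • G w) z := d1.smul (hGd z hz)
  have d3 : DifferentiableAt ℝ (fun w => cexp (p w) • dzb G w) z := (had z hz).smul hGb
  have e2 : dz (dzb (fun w => cexp (p w) • G w)) z =
      (cexp (p z) * dz p z * dzb p z + cexp (p z) * dz (dzb p) z) • G z +
        (cexp (p z) * dzb p z) • dz G z + ((cexp (p z) * dz p z) • dzb G z +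
        cexp (p z) • dz (dzb G) z) := by
    rw [dz_congr e1, dz_add d2 d3, dz_smul d1 (hGd z hz), dz_smul (had z hz) hGb,
      dz_mul (had z hz) hpb, haz]
  have e3 : dzb (fun w => cexp (p w) • G w) z =
      (cexp (p z) * dzb p z) • G z + cexp (p z) • dzb G z := e1.self_of_nhds
  -- reality of `p`
  have hreal : dz p z = conj (dzb p z) := by
    rw [← dz_conj (hpd z hz)]
    apply dz_congr
    filter_upwards [hQ.mem_nhds hz] with x hx
    rw [hpr x hx]
  obtain ⟨t, ht⟩ : ∃ t : ℝ, p z = t := ⟨(p z).re, (Complex.conj_eq_iff_re.1 (hpr z hz)).symm⟩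
  have hexp : cexp (p z) = (Real.exp t : ℝ) := by rw [ht, Complex.ofReal_exp]
  intro b c
  have h1 := hcurv b (c + dzb p z • b)
  rw [zero_mul] at h1
  have hadj : ⟪b, dz G z b⟫_ℂ = conj ⟪b, dzb G z b⟫_ℂ := by
    rw [inner_dz_eq hQ (hG1.differentiableOn one_ne_zero) hsym hz, inner_conj_symm]
  have him : (⟪b, G z b⟫_ℂ).im = 0 := by
    have h2 : conj ⟪b, G z b⟫_ℂ = ⟪b, G z b⟫_ℂ := by
      rw [inner_conj_symm, hsym z hz]
    exact Complex.conj_eq_iff_im.1 h2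
  have hcb : ⟪b, G z c⟫_ℂ = conj ⟪c, G z b⟫_ℂ := by
    rw [inner_conj_symm, hsym z hz]
  simp only [e2, e3]
  rw [hexp, hreal]
  set et := Real.exp t with het
  have het0 : 0 < et := Real.exp_pos t
  simp only [add_apply, smul_apply, inner_add_right,
    inner_smul_right, inner_add_left, inner_smul_left, map_add, map_smul, hadj, hcb] at h1 ⊢
  simp only [Complex.add_re, Complex.mul_re, Complex.mul_im, Complex.add_im, Complex.conj_re,
    Complex.conj_im, Complex.ofReal_re, Complex.ofReal_im, him] at h1 ⊢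
  nlinarith [mul_nonneg het0.le h1]

end weight

/-! ### the special weights -/

theorem dz_id (z : ℂ) : dz (fun w => w) z = 1 := by
  have : fderiv ℝ (fun w : ℂ => w) z = ContinuousLinearMap.id ℝ ℂ := fderiv_fun_id
  rw [dz, this]
  simp only [ContinuousLinearMap.id_apply, smul_eq_mul, I_mul_I]
  norm_num

theorem dzb_id (z : ℂ) : dzb (fun w => w) z = 0 := by
  have : fderiv ℝ (fun w : ℂ => w) z = ContinuousLinearMap.id ℝ ℂ := fderiv_fun_id
  rw [dzb, this]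
  simp only [ContinuousLinearMap.id_apply, smul_eq_mul, I_mul_I]
  norm_num

theorem dz_conj_id (z : ℂ) : dz (fun w => conj w) z = 0 := by
  have h : DifferentiableAt ℝ (fun w : ℂ => w) z := differentiableAt_id
  rw [dz_conj h, dzb_id, map_zero]

theorem dzb_conj_id (z : ℂ) : dzb (fun w => conj w) z = 1 := by
  have h : DifferentiableAt ℝ (fun w : ℂ => w) z := differentiableAt_id
  rw [dzb_conj h, dz_id, map_one]

theorem differentiableAt_conj (z : ℂ) : DifferentiableAt ℝ (fun w : ℂ => conj w) z :=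
  (conjCLE : ℂ →L[ℝ] ℂ).differentiableAt

/-- the special weight exponent `a log |z|² + κ log (1 + A |z|²)` -/
def wexp (a κ A : ℝ) (z : ℂ) : ℂ :=
  ((a * Real.log (‖z‖ ^ 2) + κ * Real.log (1 + A * ‖z‖ ^ 2) : ℝ) : ℂ)

theorem contDiffOn_wexp (a κ : ℝ) {A : ℝ} (hA : 0 ≤ A) : ContDiffOn ℝ 2 (wexp a κ A) {0}ᶜ := by
  intro z hz
  have hz0 : z ≠ 0 := hz
  have h1 : ContDiffAt ℝ 2 (fun z : ℂ => ‖z‖ ^ 2) z := (contDiff_norm_sq ℝ).contDiffAt
  have h2 : (‖z‖ ^ 2) ≠ 0 := by positivity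
  have h3 : (1 + A * ‖z‖ ^ 2) ≠ 0 := by positivity
  exact (ofRealCLM.contDiff.contDiffAt.comp z ((contDiffAt_const.mul (h1.log h2)).add
    (contDiffAt_const.mul ((contDiffAt_const.add (contDiffAt_const.mul h1)).log
      h3)))).contDiffWithinAt

theorem dzb_log_real {q : ℂ → ℝ} {z : ℂ} (hq : DifferentiableAt ℝ q z) (h0 : q z ≠ 0) :
    dzb (fun w => ((Real.log (q w) : ℝ) : ℂ)) z = (q z : ℂ)⁻¹ * dzb (fun w => (q w : ℂ)) z := by
  have h1 : HasFDerivAt (fun w => (q w : ℂ)) (ofRealCLM.comp (fderiv ℝ q z)) z :=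
    ofRealCLM.hasFDerivAt.comp z hq.hasFDerivAt
  have h2 : HasFDerivAt (fun w => ((Real.log (q w) : ℝ) : ℂ))
      (ofRealCLM.comp ((q z)⁻¹ • fderiv ℝ q z)) z :=
    ofRealCLM.hasFDerivAt.comp z (hq.hasFDerivAt.log h0)
  rw [dzb, dzb, h1.fderiv, h2.fderiv]
  simp only [ContinuousLinearMap.comp_apply, smul_apply, smul_eq_mul, ofRealCLM_apply,
    ofReal_mul, ofReal_inv]
  ring

theorem dzb_norm_sq (z : ℂ) : dzb (fun w => ((‖w‖ ^ 2 : ℝ) : ℂ)) z = z := by
  have h : (fun w : ℂ => ((‖w‖ ^ 2 : ℝ) : ℂ)) = fun w => w * conj w := by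
    funext w
    rw [Complex.mul_conj, Complex.normSq_eq_norm_sq]
  have h' : DifferentiableAt ℝ (fun w : ℂ => w) z := differentiableAt_id
  rw [h, dzb_mul h' (differentiableAt_conj z), dzb_id, dzb_conj_id]
  simp

theorem dzb_wexp (a κ : ℝ) {A : ℝ} (hA : 0 ≤ A) {z : ℂ} (hz : z ≠ 0) :
    dzb (wexp a κ A) z = a * conj (z⁻¹) + κ * (A * z * (1 + A * (z * conj z))⁻¹) := by
  have hd1 : DifferentiableAt ℝ (fun z : ℂ => ‖z‖ ^ 2) z :=
    (contDiff_norm_sq ℝ (n := 1)).contDiffAt.differentiableAt one_ne_zero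
  have h2 : (‖z‖ ^ 2) ≠ 0 := by positivity
  have h3 : (1 + A * ‖z‖ ^ 2) ≠ 0 := by positivity
  have hd2 : DifferentiableAt ℝ (fun z : ℂ => 1 + A * ‖z‖ ^ 2) z :=
    (differentiableAt_const _).add ((differentiableAt_const _).mul hd1)
  have e1 := dzb_log_real hd1 h2
  have e2 := dzb_log_real hd2 h3
  have hl1 : DifferentiableAt ℝ (fun w : ℂ => ((Real.log (‖w‖ ^ 2) : ℝ) : ℂ)) z :=
    ofRealCLM.differentiableAt.comp z (hd1.log h2)
  have hl2 : DifferentiableAt ℝ (fun w : ℂ => ((Real.log (1 + A * ‖w‖ ^ 2) : ℝ) : ℂ)) z :=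
    ofRealCLM.differentiableAt.comp z (hd2.log h3)
  have e3 : wexp a κ A = fun w => (a : ℂ) * ((Real.log (‖w‖ ^ 2) : ℝ) : ℂ) +
      (κ : ℂ) * ((Real.log (1 + A * ‖w‖ ^ 2) : ℝ) : ℂ) := by
    funext w
    simp only [wexp, ofReal_add, ofReal_mul]
  have hc : ∀ c : ℂ, DifferentiableAt ℝ (fun _ : ℂ => c) z := fun c => differentiableAt_const c
  have e4 : dzb (fun w : ℂ => ((1 + A * ‖w‖ ^ 2 : ℝ) : ℂ)) z = A * z := by
    have : (fun w : ℂ => ((1 + A * ‖w‖ ^ 2 : ℝ) : ℂ)) =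
        fun w => (1 : ℂ) + (A : ℂ) * ((‖w‖ ^ 2 : ℝ) : ℂ) := by
      funext w; push_cast; ring
    have hd3 : DifferentiableAt ℝ (fun w : ℂ => ((‖w‖ ^ 2 : ℝ) : ℂ)) z :=
      ofRealCLM.differentiableAt.comp z hd1
    have hd4 : DifferentiableAt ℝ (fun w : ℂ => (A : ℂ) * ((‖w‖ ^ 2 : ℝ) : ℂ)) z := (hc A).mul hd3
    rw [this, dzb_add (hc 1) hd4, dzb_mul (hc A) hd3, dzb_norm_sq, dzb_const,
      dzb_const]
    ring
  have m1 : DifferentiableAt ℝ (fun w : ℂ => (a : ℂ) * ((Real.log (‖w‖ ^ 2) : ℝ) : ℂ)) z :=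
    (hc a).mul hl1
  have m2 : DifferentiableAt ℝ
      (fun w : ℂ => (κ : ℂ) * ((Real.log (1 + A * ‖w‖ ^ 2) : ℝ) : ℂ)) z := (hc κ).mul hl2
  rw [e3, dzb_add m1 m2, dzb_mul (hc a) hl1, dzb_mul (hc κ) hl2, e1,
    e2, dzb_norm_sq, e4, dzb_const, dzb_const]
  have h5 : ((‖z‖ ^ 2 : ℝ) : ℂ) = z * conj z := by
    rw [Complex.mul_conj, Complex.normSq_eq_norm_sq]
  have h6 : ((1 + A * ‖z‖ ^ 2 : ℝ) : ℂ) = 1 + A * (z * conj z) := by
    rw [← h5]; push_cast; ring
  rw [h5, h6, map_inv₀]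
  have hzc : conj z ≠ 0 := by simpa using hz
  field_simp
  ring

theorem dz_dzb_wexp (a κ : ℝ) {A : ℝ} (hA : 0 ≤ A) {z : ℂ} (hz : z ≠ 0) :
    dz (dzb (wexp a κ A)) z = ((κ * A / (1 + A * ‖z‖ ^ 2) ^ 2 : ℝ) : ℂ) := by
  have e1 : dzb (wexp a κ A) =ᶠ[𝓝 z]
      fun z => a * conj (z⁻¹) + κ * (A * z * (1 + A * (z * conj z))⁻¹) := by
    filter_upwards [isOpen_ne.mem_nhds hz] with w hw
    exact dzb_wexp a κ hA hw
  have hc : ∀ c : ℂ, DifferentiableAt ℝ (fun _ : ℂ => c) z := fun c => differentiableAt_const c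
  have hid : DifferentiableAt ℝ (fun w : ℂ => w) z := differentiableAt_id
  have hne : (1 : ℂ) + A * (z * conj z) ≠ 0 := by
    have : (1 : ℂ) + A * (z * conj z) = ((1 + A * ‖z‖ ^ 2 : ℝ) : ℂ) := by
      rw [Complex.mul_conj, Complex.normSq_eq_norm_sq]; push_cast; ring
    rw [this]
    have h3 : (1 + A * ‖z‖ ^ 2) ≠ 0 := by positivity
    exact_mod_cast h3
  have hq : DifferentiableAt ℝ (fun w : ℂ => (1 : ℂ) + A * (w * conj w)) z :=
    (hc 1).add ((hc A).mul (hid.mul (differentiableAt_conj z)))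
  have hinv : DifferentiableAt ℝ (fun w : ℂ => ((1 : ℂ) + A * (w * conj w))⁻¹) z := hq.inv hne
  have hzi : DifferentiableAt ℝ (fun w : ℂ => w⁻¹) z :=
    (differentiableAt_inv (𝕜 := ℂ) hz).restrictScalars ℝ
  have hzic : DifferentiableAt ℝ (fun w : ℂ => conj (w⁻¹)) z :=
    (conjCLE : ℂ →L[ℝ] ℂ).differentiableAt.comp z hzi
  have e2 : dz (fun w : ℂ => conj (w⁻¹)) z = 0 := by
    rw [dz_conj hzi, dzb_of_holo (differentiableAt_inv hz), map_zero]
  have n1 : DifferentiableAt ℝ (fun w : ℂ => w * conj w) z := hid.mul (differentiableAt_conj z)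
  have n2 : DifferentiableAt ℝ (fun w : ℂ => (A : ℂ) * (w * conj w)) z := (hc A).mul n1
  have e3 : dz (fun w : ℂ => (1 : ℂ) + A * (w * conj w)) z = A * conj z := by
    rw [dz_add (hc 1) n2, dz_mul (hc A) n1, dz_mul hid (differentiableAt_conj z),
      dz_id, dz_conj_id, dz_const, dz_const]
    ring
  have e4 : dz (fun w : ℂ => ((1 : ℂ) + A * (w * conj w))⁻¹) z =
      -((1 + A * (z * conj z)) ^ 2)⁻¹ * (A * conj z) := by
    have := dz_comp_holo (φ := fun w => w⁻¹) hq (differentiableAt_inv hne)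
    rw [this, deriv_inv, e3]
  have d1 : DifferentiableAt ℝ (fun w : ℂ => (A : ℂ) * w) z := (hc A).mul hid
  have d2 : DifferentiableAt ℝ (fun w : ℂ => (A : ℂ) * w * (1 + A * (w * conj w))⁻¹) z :=
    d1.mul hinv
  have m1 : DifferentiableAt ℝ (fun w : ℂ => (a : ℂ) * conj (w⁻¹)) z := (hc a).mul hzic
  have m2 : DifferentiableAt ℝ
      (fun w : ℂ => (κ : ℂ) * ((A : ℂ) * w * (1 + A * (w * conj w))⁻¹)) z := (hc κ).mul d2
  rw [dz_congr e1, dz_add m1 m2, dz_mul (hc a) hzic, e2,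
    dz_mul (hc κ) d2, dz_mul d1 hinv, e4, dz_mul (hc A) hid, dz_id, dz_const, dz_const, dz_const]
  have h5 : ((‖z‖ : ℂ)) ^ 2 = z * conj z := by
    rw [Complex.mul_conj, Complex.normSq_eq_norm_sq]; push_cast; ring
  push_cast
  rw [h5]
  field_simp
  ring

end Vale.Agent.P253.R2.H66
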