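import Mathlib

/-! P253 (helper66): Wirtinger derivatives of vector valued functions on `ℂ`. -/

open Complex Filter Topology Set Metric MeasureTheory
open scoped ContDiff

noncomputable section

namespace Vale.Agent.P253.R2.H66

variable {F F' F'' : Type*} [NormedAddCommGroup F] [NormedSpace ℂ F]
  [NormedAddCommGroup F'] [NormedSpace ℂ F'] [NormedAddCommGroup F''] [NormedSpace ℂ F'']

/-- `∂f/∂z` -/
def dz (f : ℂ → F) (z : ℂ) : F := (1 / 2 : ℂ) • (fderiv ℝ f z 1 - I • fderiv ℝ f z I)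

/-- `∂f/∂z̄` -/
def dzb (f : ℂ → F) (z : ℂ) : F := (1 / 2 : ℂ) • (fderiv ℝ f z 1 + I • fderiv ℝ f z I)

theorem dz_congr {f g : ℂ → F} {z : ℂ} (h : f =ᶠ[𝓝 z] g) : dz f z = dz g z := by
  rw [dz, dz, h.fderiv_eq]

theorem dzb_congr {f g : ℂ → F} {z : ℂ} (h : f =ᶠ[𝓝 z] g) : dzb f z = dzb g z := by
  rw [dzb, dzb, h.fderiv_eq]

theorem fderiv_one_eq (f : ℂ → F) (z : ℂ) : fderiv ℝ f z 1 = dz f z + dzb f z := by
  rw [dz, dzb, ← smul_add]
  have : fderiv ℝ f z 1 - I • fderiv ℝ f z I + (fderiv ℝ f z 1 + I • fderiv ℝ f z I)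
      = (2 : ℂ) • fderiv ℝ f z 1 := by rw [two_smul]; abel
  rw [this, smul_smul]; norm_num

theorem fderiv_I_eq (f : ℂ → F) (z : ℂ) : fderiv ℝ f z I = I • (dz f z - dzb f z) := by
  rw [dz, dzb, ← smul_sub]
  have : fderiv ℝ f z 1 - I • fderiv ℝ f z I - (fderiv ℝ f z 1 + I • fderiv ℝ f z I)
      = -((2 : ℂ) • (I • fderiv ℝ f z I)) := by rw [two_smul]; abel
  rw [this, smul_neg, smul_smul, smul_neg, smul_smul, smul_smul]
  norm_num

theorem fderiv_bilin (B : F →L[ℂ] F' →L[ℂ] F'') {f : ℂ → F} {g : ℂ → F'} {z : ℂ}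
    (hf : DifferentiableAt ℝ f z) (hg : DifferentiableAt ℝ g z) (v : ℂ) :
    fderiv ℝ (fun w => B (f w) (g w)) z v = B (fderiv ℝ f z v) (g z) + B (f z) (fderiv ℝ g z v) := by
  have h1 := (B.bilinearRestrictScalars ℝ).hasFDerivAt_of_bilinear hf.hasFDerivAt hg.hasFDerivAt
  have h2 : fderiv ℝ (fun w => B (f w) (g w)) z = _ := h1.fderiv
  rw [h2, add_comm]
  rfl

theorem dz_bilin (B : F →L[ℂ] F' →L[ℂ] F'') {f : ℂ → F} {g : ℂ → F'} {z : ℂ}
    (hf : DifferentiableAt ℝ f z) (hg : DifferentiableAt ℝ g z) :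
    dz (fun w => B (f w) (g w)) z = B (dz f z) (g z) + B (f z) (dz g z) := by
  simp only [dz, fderiv_bilin B hf hg, map_smul, map_sub, smul_apply, sub_apply]
  module

theorem dzb_bilin (B : F →L[ℂ] F' →L[ℂ] F'') {f : ℂ → F} {g : ℂ → F'} {z : ℂ}
    (hf : DifferentiableAt ℝ f z) (hg : DifferentiableAt ℝ g z) :
    dzb (fun w => B (f w) (g w)) z = B (dzb f z) (g z) + B (f z) (dzb g z) := by
  simp only [dzb, fderiv_bilin B hf hg, map_smul, map_add, smul_apply, add_apply]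
  module

section capply

variable {X : Type*} [NormedAddCommGroup X] [NormedSpace ℝ X]

theorem differentiableAt_capply {f : X → F →L[ℂ] F'} {g : X → F} {z : X}
    (hf : DifferentiableAt ℝ f z) (hg : DifferentiableAt ℝ g z) :
    DifferentiableAt ℝ (fun w => f w (g w)) z :=
  (((ContinuousLinearMap.id ℂ (F →L[ℂ] F')).bilinearRestrictScalars ℝ).hasFDerivAt_of_bilinear
    hf.hasFDerivAt hg.hasFDerivAt).differentiableAt

theorem contDiffOn_capply {n : WithTop ℕ∞} {f : X → F →L[ℂ] F'} {g : X → F} {s : Set X}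
    (hf : ContDiffOn ℝ n f s) (hg : ContDiffOn ℝ n g s) :
    ContDiffOn ℝ n (fun w => f w (g w)) s :=
  ((ContinuousLinearMap.id ℂ (F →L[ℂ] F')).bilinearRestrictScalars
    ℝ).isBoundedBilinearMap.contDiff.comp_contDiffOn (hf.prodMk hg)

end capply

/-- application of operator valued functions -/
theorem dz_apply {f : ℂ → F →L[ℂ] F'} {g : ℂ → F} {z : ℂ}
    (hf : DifferentiableAt ℝ f z) (hg : DifferentiableAt ℝ g z) :
    dz (fun w => f w (g w)) z = dz f z (g z) + f z (dz g z) :=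
  dz_bilin (ContinuousLinearMap.id ℂ (F →L[ℂ] F')) hf hg

theorem dzb_apply {f : ℂ → F →L[ℂ] F'} {g : ℂ → F} {z : ℂ}
    (hf : DifferentiableAt ℝ f z) (hg : DifferentiableAt ℝ g z) :
    dzb (fun w => f w (g w)) z = dzb f z (g z) + f z (dzb g z) :=
  dzb_bilin (ContinuousLinearMap.id ℂ (F →L[ℂ] F')) hf hg

section inner

variable {E : Type*} [NormedAddCommGroup E] [InnerProductSpace ℂ E]

theorem fderiv_inner' {f g : ℂ → E} {z : ℂ} (hf : DifferentiableAt ℝ f z)
    (hg : DifferentiableAt ℝ g z) (v : ℂ) :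
    fderiv ℝ (fun w => inner ℂ (f w) (g w)) z v =
      inner ℂ (f z) (fderiv ℝ g z v) + inner ℂ (fderiv ℝ f z v) (g z) :=
  fderiv_inner_apply ℂ hf hg v

theorem dz_inner {f g : ℂ → E} {z : ℂ} (hf : DifferentiableAt ℝ f z)
    (hg : DifferentiableAt ℝ g z) :
    dz (fun w => inner ℂ (f w) (g w)) z = inner ℂ (f z) (dz g z) + inner ℂ (dzb f z) (g z) := by
  simp only [dz, dzb, fderiv_inner' hf hg, inner_smul_left, inner_smul_right, inner_add_left,
    inner_sub_right, map_div₀, map_one, conj_I, smul_eq_mul, map_ofNat]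
  ring

theorem dzb_inner {f g : ℂ → E} {z : ℂ} (hf : DifferentiableAt ℝ f z)
    (hg : DifferentiableAt ℝ g z) :
    dzb (fun w => inner ℂ (f w) (g w)) z = inner ℂ (f z) (dzb g z) + inner ℂ (dz f z) (g z) := by
  simp only [dz, dzb, fderiv_inner' hf hg, inner_smul_left, inner_smul_right, inner_sub_left,
    inner_add_right, map_div₀, map_one, conj_I, smul_eq_mul, map_ofNat]
  ring

end inner

theorem dz_sub {f g : ℂ → F} {z : ℂ} (hf : DifferentiableAt ℝ f z)
    (hg : DifferentiableAt ℝ g z) : dz (fun w => f w - g w) z = dz f z - dz g z := by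
  have h : fderiv ℝ (fun w => f w - g w) z = fderiv ℝ f z - fderiv ℝ g z := fderiv_fun_sub hf hg
  simp only [dz, h, sub_apply]
  module

theorem dzb_sub {f g : ℂ → F} {z : ℂ} (hf : DifferentiableAt ℝ f z)
    (hg : DifferentiableAt ℝ g z) : dzb (fun w => f w - g w) z = dzb f z - dzb g z := by
  have h : fderiv ℝ (fun w => f w - g w) z = fderiv ℝ f z - fderiv ℝ g z := fderiv_fun_sub hf hg
  simp only [dzb, h, sub_apply]
  module

theorem dz_add {f g : ℂ → F} {z : ℂ} (hf : DifferentiableAt ℝ f z)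
    (hg : DifferentiableAt ℝ g z) : dz (fun w => f w + g w) z = dz f z + dz g z := by
  have h : fderiv ℝ (fun w => f w + g w) z = fderiv ℝ f z + fderiv ℝ g z := fderiv_fun_add hf hg
  simp only [dz, h, add_apply]
  module

theorem dzb_add {f g : ℂ → F} {z : ℂ} (hf : DifferentiableAt ℝ f z)
    (hg : DifferentiableAt ℝ g z) : dzb (fun w => f w + g w) z = dzb f z + dzb g z := by
  have h : fderiv ℝ (fun w => f w + g w) z = fderiv ℝ f z + fderiv ℝ g z := fderiv_fun_add hf hg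
  simp only [dzb, h, add_apply]
  module

/-- holomorphic functions -/
theorem dzb_of_holo {f : ℂ → F} {z : ℂ} (hf : DifferentiableAt ℂ f z) : dzb f z = 0 := by
  have h : ∀ v, fderiv ℝ f z v = fderiv ℂ f z v := fun v => by
    rw [hf.fderiv_restrictScalars ℝ]; rfl
  have h2 : fderiv ℂ f z I = I • fderiv ℂ f z 1 := by
    rw [← map_smul, smul_eq_mul, mul_one]
  rw [dzb, h, h, h2, smul_smul, I_mul_I, neg_one_smul, add_neg_cancel, smul_zero]

theorem dz_of_holo {f : ℂ → F} {z : ℂ} (hf : DifferentiableAt ℂ f z) : dz f z = deriv f z := by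
  have h : ∀ v, fderiv ℝ f z v = fderiv ℂ f z v := fun v => by
    rw [hf.fderiv_restrictScalars ℝ]; rfl
  have h2 : fderiv ℂ f z I = I • fderiv ℂ f z 1 := by
    rw [← map_smul, smul_eq_mul, mul_one]
  rw [dz, h, h, h2, smul_smul, I_mul_I, neg_one_smul, sub_neg_eq_add, ← two_smul ℂ, smul_smul]
  norm_num

end Vale.Agent.P253.R2.H66
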